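import Vale.Agent.P083.Gap

/-! Permutations with phases and amplified operators. -/

namespace Vale.Agent.P083
open Finset
open scoped InnerProductSpace

/-- The field with 29 elements. -/
abbrev F := ZMod 29

instance : Fact (Nat.Prime 29) := ⟨by norm_num⟩

/-- The standard character. -/
noncomputable def ch (a : F) : ℂ := ZMod.stdAddChar a

lemma ch_add (a b : F) : ch (a + b) = ch a * ch b := AddChar.map_add_eq_mul _ a b

lemma ch_zero : ch 0 = 1 := AddChar.map_zero_eq_one _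

lemma norm_ch (a : F) : ‖ch a‖ = 1 := Circle.norm_coe _

lemma ch_mul_neg (a : F) : ch a * ch (-a) = 1 := by rw [← ch_add, add_neg_cancel, ch_zero]

lemma conj_ch (a : F) : (starRingEnd ℂ) (ch a) = ch (-a) := (AddChar.map_neg_eq_conj _ a).symm

lemma ch_eq_one {a : F} (h : ch a = 1) : a = 0 :=
  ZMod.injective_stdAddChar (h.trans ch_zero.symm)

/-- Permutations with phases. -/
@[ext] structure PP (Y : Type) where
  /-- the permutation -/
  σ : Equiv.Perm Y
  /-- the phase -/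
  c : Y → F

variable {Y : Type}

instance : Mul (PP Y) := ⟨fun g h => ⟨g.σ * h.σ, fun y => g.c (h.σ y) + h.c y⟩⟩
instance : One (PP Y) := ⟨⟨1, 0⟩⟩
instance : Inv (PP Y) := ⟨fun g => ⟨g.σ⁻¹, fun y => -g.c (g.σ⁻¹ y)⟩⟩

@[simp] lemma PP.mul_σ (g h : PP Y) : (g * h).σ = g.σ * h.σ := rfl
@[simp] lemma PP.mul_c (g h : PP Y) (y : Y) : (g * h).c y = g.c (h.σ y) + h.c y := rfl
@[simp] lemma PP.one_σ : (1 : PP Y).σ = 1 := rfl
@[simp] lemma PP.one_c (y : Y) : (1 : PP Y).c y = 0 := rfl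
@[simp] lemma PP.inv_σ (g : PP Y) : g⁻¹.σ = g.σ⁻¹ := rfl
@[simp] lemma PP.inv_c (g : PP Y) (y : Y) : g⁻¹.c y = -g.c (g.σ⁻¹ y) := rfl

instance : Group (PP Y) := Group.ofLeftAxioms
  (fun _ _ _ => by ext <;> simp [add_assoc]) (fun _ => by ext <;> simp)
  (fun _ => by ext <;> simp)

/-- The group relations. -/
structure GRel {G : Type} [Group G] (g : Fin 5 → G) : Prop where
  p : ∀ s, g s ^ 29 = 1
  c : ∀ s t, Commute (g s * g t * (g s)⁻¹ * (g t)⁻¹) (g s) ∧
    Commute (g s * g t * (g s)⁻¹ * (g t)⁻¹) (g t)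

lemma GRel.map {G G' : Type} [Group G] [Group G'] {g : Fin 5 → G} (h : GRel g) (f : G →* G') :
    GRel fun s => f (g s) where
  p s := by rw [← map_pow, h.p, map_one]
  c s t := by simpa using And.intro ((h.c s t).1.map f) ((h.c s t).2.map f)

variable [Fintype Y] {H : Type*} [NormedAddCommGroup H] [InnerProductSpace ℂ H]

/-- Square summable functions. -/
abbrev L2 (Y : Type) (H : Type*) := PiLp 2 fun _ : Y => H

/-- The tensor product of a permutation with phases and an operator. -/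
noncomputable def amp (x : H →L[ℂ] H) (g : PP Y) : L2 Y H →L[ℂ] L2 Y H :=
  LinearMap.mkContinuous
    { toFun T := WithLp.toLp 2 fun y => ch (g.c (g.σ⁻¹ y)) • x (T (g.σ⁻¹ y))
      map_add' _ _ := by ext; simp
      map_smul' c _ := by ext; simp [smul_comm c] } ‖x‖ fun T => by
    rw [← sq_le_sq₀ (norm_nonneg _) (by positivity), mul_pow, PiLp.norm_sq_eq_of_L2,
      PiLp.norm_sq_eq_of_L2, mul_sum, ← Equiv.sum_comp g.σ]
    refine sum_le_sum fun y _ => ?_
    simp only [LinearMap.coe_mk, AddHom.coe_mk, norm_smul, norm_ch, one_mul, Equiv.Perm.inv_def,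
      Equiv.symm_apply_apply, ← mul_pow]
    gcongr
    exact x.le_opNorm _

lemma amp_apply' (x : H →L[ℂ] H) (g : PP Y) (T : L2 Y H) (y : Y) :
    amp x g T y = ch (g.c (g.σ⁻¹ y)) • x (T (g.σ⁻¹ y)) := rfl

lemma amp_apply (x : H →L[ℂ] H) (g : PP Y) (T : L2 Y H) (y : Y) :
    amp x g T (g.σ y) = ch (g.c y) • x (T y) := by
  simp [amp_apply']

lemma norm_amp (x : H →L[ℂ] H) (g : PP Y) : ‖amp x g‖ ≤ ‖x‖ :=
  LinearMap.mkContinuous_norm_le _ (norm_nonneg _) _

lemma amp_mul (x x' : H →L[ℂ] H) (g g' : PP Y) : amp x g * amp x' g' = amp (x * x') (g * g') := by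
  ext T y
  simp [amp_apply', smul_smul, ch_add]
  rfl

lemma amp_one : amp (1 : H →L[ℂ] H) (1 : PP Y) = 1 := by
  ext T y
  simp [amp_apply', ch_zero]
  rfl

lemma amp_sub (x x' : H →L[ℂ] H) (g : PP Y) : amp x g - amp x' g = amp (x - x') g := by
  ext T y
  simp [amp_apply', smul_sub]

lemma amp_pow (x : H →L[ℂ] H) (g : PP Y) (k : ℕ) : amp x g ^ k = amp (x ^ k) (g ^ k) := by
  induction k with
  | zero => simp [amp_one]
  | succ k ih => rw [pow_succ, ih, amp_mul, ← pow_succ, ← pow_succ]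

lemma normsq_amp (x : H →L[ℂ] H) (g : PP Y) (T : L2 Y H) :
    ‖amp x g T - T‖ ^ 2 = ∑ y, ‖ch (g.c y) • x (T y) - T (g.σ y)‖ ^ 2 := by
  rw [PiLp.norm_sq_eq_of_L2, ← Equiv.sum_comp g.σ]
  simp only [PiLp.sub_apply, amp_apply]

variable [CompleteSpace H]

lemma star_amp (x : H →L[ℂ] H) (g : PP Y) : star (amp x g) = amp (star x) g⁻¹ := by
  rw [ContinuousLinearMap.star_eq_adjoint, eq_comm, ContinuousLinearMap.eq_adjoint_iff]
  intro T S
  rw [PiLp.inner_apply, PiLp.inner_apply, ← Equiv.sum_comp g.σ fun y => ⟪T y, amp x g S y⟫_ℂ]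
  refine sum_congr rfl fun y _ => ?_
  rw [amp_apply, amp_apply', inner_smul_left, inner_smul_right, conj_ch,
    ContinuousLinearMap.star_eq_adjoint, ContinuousLinearMap.adjoint_inner_left]
  simp only [PP.inv_c, PP.inv_σ, inv_inv, neg_neg, Equiv.Perm.inv_def, Equiv.symm_apply_apply,
    Equiv.symm_symm]

lemma rel0_amp {V : Fin 5 → H →L[ℂ] H} {g : Fin 5 → PP Y} (h : GRel g) (s t k : Fin 5) :
    ‖rel0 (fun s => amp (V s) (g s)) s t k‖ ≤ ‖rel0 V s t k‖ := by
  have h1 : ∀ {a b : H →L[ℂ] H} {g g' : PP Y}, g = g' → ‖amp a g - amp b g'‖ ≤ ‖a - b‖ := by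
    rintro a b g _ rfl
    rw [amp_sub]
    exact norm_amp _ _
  fin_cases k
  · change ‖star _ * _ - 1‖ ≤ ‖star _ * _ - 1‖
    rw [star_amp, amp_mul, ← amp_one]
    exact h1 (inv_mul_cancel _)
  · change ‖_ * star _ - 1‖ ≤ ‖_ * star _ - 1‖
    rw [star_amp, amp_mul, ← amp_one]
    exact h1 (mul_inv_cancel _)
  · change ‖_ ^ 29 - 1‖ ≤ ‖_ ^ 29 - 1‖
    rw [amp_pow, ← amp_one]
    exact h1 (h.p s)
  · change ‖_ - _‖ ≤ ‖_ - _‖
    simp only [star_amp, amp_mul]
    exact h1 (h.c s t).1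
  · change ‖_ - _‖ ≤ ‖_ - _‖
    simp only [star_amp, amp_mul]
    exact h1 (h.c s t).2

end Vale.Agent.P083
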