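import Vale.Agent.P083.Gen

/-! Almost invariant vectors at all levels. -/

namespace Vale.Agent.P083
open Finset
open scoped InnerProductSpace

/-- The first letter after applying a generator. -/
def nx (s : Fin 5) (j : F) : F := j + if s.val = 3 then 1 else 0

/-- The action of a generator on the tail. -/
def wd {G : Type*} [Monoid G] (V : Fin 5 → G) (s : Fin 5) (j : F) : G :=
  ![V 3 ^ j.val * V 2, V 0, V 1, 1, V 4] s

variable {M : ℕ}

lemma X_pow (k : ℕ) (y : Yl M) : (gen M 3 ^ k).σ y 0 = y 0 + k ∧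
    (∀ m : Fin M, (gen M 3 ^ k).σ y m.succ = y m.succ) ∧ (gen M 3 ^ k).c y = 0 := by
  induction k with
  | zero => simp
  | succ k ih =>
    rw [pow_succ', PP.mul_σ, PP.mul_c, Equiv.Perm.mul_apply, gen_zero, gen_c, ih.1, ih.2.2]
    refine ⟨by simp [add_assoc], fun m => ?_, by simp⟩
    rw [gen_succ, ih.2.1, if_neg (by change ¬ _ = 3; omega), add_zero]

lemma gen_cons (s : Fin 5) (j : F) (y : Yl M) :
    (gen (M + 1) s).σ (Fin.cons j y) = Fin.cons (nx s j) ((wd (gen M) s j).σ y) ∧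
      (gen (M + 1) s).c (Fin.cons j y) = (wd (gen M) s j).c y := by
  constructor
  · funext i
    refine Fin.cases (by simp [gen_zero, nx]) (fun i => ?_) i
    rw [gen_succ, Fin.cons_succ, Fin.cons_succ]
    refine Fin.cases ?_ (fun i => ?_) i
    · fin_cases s <;> simp [wd, gen_zero, (X_pow _ _).1]
    · rw [Fin.castSucc_succ, Fin.cons_succ, Fin.val_succ]
      fin_cases s <;> simp only [wd, Matrix.cons_val, Fin.reduceFinMk, gen_succ, PP.mul_σ,
        Equiv.Perm.mul_apply, (X_pow _ _).2.1, PP.one_σ, Equiv.Perm.one_apply]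
      · congr 2; exact propext (by change _ ↔ _ = 2; omega)
      · congr 2; exact propext (by change _ ↔ _ = 0; omega)
      · congr 2; exact propext (by change _ ↔ _ = 1; omega)
      · rw [if_neg (by change ¬ _ = 3; omega), add_zero]
      · rw [if_neg (by change ¬ _ = 4; omega), if_neg (by change ¬ _ = 4; omega)]
  · fin_cases s <;> simp [wd, gen_c, (X_pow _ _).2.2]

lemma gen_base (s : Fin 5) (j : F) : (gen 0 s).σ (fun _ => j) = fun _ => nx s j := by
  funext i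
  rw [Fin.fin_one_eq_zero i, gen_zero, nx]

section
variable {R R' : Type*} [Ring R] [Algebra ℂ R] [Star R] [Ring R'] [Algebra ℂ R'] [Star R']

/-- The defects of the remaining relations. -/
noncomputable def rel1 (V : Fin 5 → R) (S T : F → R) (s : Fin 5) (j : F) : Fin 4 → R :=
  ![star (S j) * S j - 1, star (T j) * T j - 1, V s * S j - S (nx s j) * wd V s j,
    V s * T j - ch (-(if s.val = 4 then j else 0)) • T (nx s j)]

lemma map_wd {G G' : Type*} [Monoid G] [Monoid G'] {Φ : Type*} [FunLike Φ G G']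
    [MonoidHomClass Φ G G'] (f : Φ) (V : Fin 5 → G) (s : Fin 5) (j : F) :
    f (wd V s j) = wd (fun s => f (V s)) s j := by
  fin_cases s <;> simp [wd]

lemma map_rel1 (f : R →⋆ₐ[ℂ] R') (V : Fin 5 → R) (S T : F → R) (s : Fin 5) (j : F) (k : Fin 4) :
    f (rel1 V S T s j k) =
      rel1 (fun s => f (V s)) (fun s => f (S s)) (fun s => f (T s)) s j k := by
  fin_cases k <;> simp [rel1, map_star, map_wd]

end

lemma norm_wd {K : Type*} [NormedAddCommGroup K] [NormedSpace ℂ K] {W : Fin 5 → K →L[ℂ] K}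
    (hW : ∀ s, ‖W s‖ ≤ 1) {T : K} {a : ℝ} (h : ∀ s, ‖W s T - T‖ ≤ a) (s : Fin 5) (j : F) :
    ‖wd W s j T - T‖ ≤ 29 * a := by
  have ha : 0 ≤ a := (norm_nonneg _).trans (h 0)
  have h1 : ∀ s, ‖W s T - T‖ ≤ 29 * a := fun s => by linarith [h s]
  fin_cases s
  · change ‖(W 3 ^ j.val) (W 2 T) - T‖ ≤ _
    have h2 : ‖W 3 ^ j.val‖ ≤ 1 := by
      cases j.val with
      | zero => exact ContinuousLinearMap.norm_id_le
      | succ k => exact (norm_pow_le' _ k.succ_pos).trans (pow_le_one₀ (norm_nonneg _) (hW 3))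
    have h3 := (W 3 ^ j.val).le_of_opNorm_le h2 (W 2 T - T)
    have h4 := norm_pow_sub (hW 3) T j.val
    have h5 : (j.val : ℝ) ≤ 28 := by exact_mod_cast Nat.le_of_lt_succ (ZMod.val_lt j)
    have h6 := norm_add_le ((W 3 ^ j.val) (W 2 T - T)) ((W 3 ^ j.val) T - T)
    rw [map_sub, sub_add_sub_cancel, ← map_sub] at h6
    have h7 := mul_le_mul h5 (h 3) (norm_nonneg _) (by norm_num)
    linarith [h 2]
  exacts [h1 0, h1 1, by simpa [wd] using ha, h1 4]

variable {H : Type*} [NormedAddCommGroup H] [InnerProductSpace ℂ H]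

lemma wd_amp {Y : Type} [Fintype Y] (V : Fin 5 → H →L[ℂ] H) (g : Fin 5 → PP Y) (s : Fin 5)
    (j : F) : wd (fun s => amp (V s) (g s)) s j = amp (wd V s j) (wd g s j) := by
  fin_cases s <;> simp [wd, amp_pow, amp_mul, amp_one]

lemma AI_of_sq {K : Type*} [NormedAddCommGroup K] [NormedSpace ℂ K] {W : Fin 5 → K →L[ℂ] K}
    {T : K} {a : ℝ} (ha : 0 < a) (h1 : a ≤ ‖T‖ ^ 2) (h2 : ∀ s, ‖W s T - T‖ ^ 2 ≤ a / 10 ^ 6) :
    AI W (1 / 1000) :=
  ⟨T, by rintro rfl; simp at h1; linarith, fun s => by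
    rw [← sq_le_sq₀ (norm_nonneg _) (by positivity)]
    nlinarith [h2 s]⟩

variable [CompleteSpace H]

lemma norm_ge_of {S : H →L[ℂ] H} (h : ‖star S * S - 1‖ ≤ 1 / 2) (v : H) :
    ‖v‖ ^ 2 / 2 ≤ ‖S v‖ ^ 2 := by
  have h1 := re_sub_le v ((star S * S) v)
  have h2 := (star S * S - 1).le_of_opNorm_le h v
  rw [ContinuousLinearMap.mul_apply, ContinuousLinearMap.star_eq_adjoint,
    ContinuousLinearMap.adjoint_inner_right] at h1
  have h3 : (⟪S v, S v⟫_ℂ).re = ‖S v‖ ^ 2 := inner_self_eq_norm_sq (𝕜 := ℂ) _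
  have h4 := mul_le_mul_of_nonneg_left h2 (norm_nonneg v)
  rw [h3] at h1
  change _ ≤ ‖v‖ * ‖(star S * S - 1) v‖ at h1
  nlinarith

variable {V : Fin 5 → H →L[ℂ] H} {S T : F → H →L[ℂ] H}

lemma base [Nontrivial H] (h : ∀ s j k, ‖rel1 V S T s j k‖ ≤ 1 / 10 ^ 4) :
    AI (fun s => amp (V s) (gen 0 s)) (1 / 1000) := by
  obtain ⟨ξ, hξ⟩ := exists_ne (0 : H)
  have h0 := norm_pos_iff.2 hξ
  have hs : ∀ f : Yl 0 → ℝ, ∑ z, f z = ∑ j, f fun _ => j := fun f =>
    (Equiv.sum_comp (Equiv.funUnique (Fin 1) F).symm f).symm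
  refine AI_of_sq (T := WithLp.toLp 2 fun z => T (z 0) ξ) (a := ∑ _ : F, ‖ξ‖ ^ 2 / 2)
    (sum_pos (fun _ _ => by positivity) univ_nonempty) ?_ fun s => ?_
  · rw [PiLp.norm_sq_eq_of_L2, hs]
    exact sum_le_sum fun j _ => norm_ge_of ((h 0 j 1).trans (by norm_num)) ξ
  · rw [normsq_amp, hs, sum_div]
    refine sum_le_sum fun j _ => ?_
    have h1 := (rel1 V S T s j 3).le_of_opNorm_le (h s j 3) ξ
    have h2 : ch ((gen 0 s).c fun _ => j) • V s (T j ξ) - T (nx s j) ξ =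
        ch ((gen 0 s).c fun _ => j) • rel1 V S T s j 3 ξ := by
      change _ = _ • (V s (T j ξ) - ch (-(gen 0 s).c fun _ => j) • T (nx s j) ξ)
      rw [smul_sub, smul_smul, ch_mul_neg, one_smul]
    simp only [gen_base]
    rw [h2, norm_smul, norm_ch, one_mul]
    have h3 := pow_le_pow_left₀ (norm_nonneg _) h1 2
    nlinarith

lemma step (hV : ∀ s, ‖V s‖ ≤ 1) (hS : ∀ j, ‖S j‖ ≤ 1)
    (h : ∀ s j k, ‖rel1 V S T s j k‖ ≤ 1 / 10 ^ 4)
    (hA : AI (fun s => amp (V s) (gen M s)) (1 / 10 ^ 7)) :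
    AI (fun s => amp (V s) (gen (M + 1) s)) (1 / 1000) := by
  obtain ⟨ξ, hξ, hA⟩ := hA
  have h0 := norm_pos_iff.2 hξ
  have hs : ∀ f : Yl (M + 1) → ℝ, ∑ z, f z = ∑ j, ∑ y : Yl M, f (Fin.cons j y) := fun f => by
    rw [← Fintype.sum_prod_type']
    exact (Equiv.sum_comp (Fin.consEquiv fun _ => F) f).symm
  refine AI_of_sq (T := WithLp.toLp 2 fun z => S (z 0) (ξ (Fin.tail z)))
    (a := ∑ _ : F, ‖ξ‖ ^ 2 / 2) (sum_pos (fun _ _ => by positivity) univ_nonempty) ?_ fun s => ?_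
  · rw [PiLp.norm_sq_eq_of_L2, PiLp.norm_sq_eq_of_L2, hs]
    refine sum_le_sum fun j _ => ?_
    rw [sum_div]
    exact sum_le_sum fun y _ => norm_ge_of ((h 0 j 0).trans (by norm_num)) (ξ y)
  · rw [normsq_amp, hs, sum_div]
    refine sum_le_sum fun j _ => ?_
    have h1 := norm_wd (fun s => (norm_amp (V s) (gen M s)).trans (hV s)) hA s j
    have h2 := pow_le_pow_left₀ (norm_nonneg _) h1 2
    rw [wd_amp, normsq_amp] at h2
    calc _ ≤ ∑ y, (2 * (1 / 10 ^ 4) ^ 2 * ‖ξ y‖ ^ 2 + 2 * ‖ch ((wd (gen M) s j).c y) •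
          wd V s j (ξ y) - ξ ((wd (gen M) s j).σ y)‖ ^ 2) := by
          refine sum_le_sum fun y _ => ?_
          simp only [gen_cons, Fin.cons_zero, Fin.tail_cons]
          generalize (wd (gen M) s j).c y = c
          generalize ξ ((wd (gen M) s j).σ y) = v
          have h3 : ch c • V s (S j (ξ y)) - S (nx s j) v = ch c • rel1 V S T s j 2 (ξ y) +
              S (nx s j) (ch c • wd V s j (ξ y) - v) := by
            change _ = _ • (V s (S j (ξ y)) - S (nx s j) (wd V s j (ξ y))) + _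
            rw [map_sub, map_smul, smul_sub]
            abel
          have h4 := (rel1 V S T s j 2).le_of_opNorm_le (h s j 2) (ξ y)
          have h5 := (S (nx s j)).le_of_opNorm_le (hS _) (ch c • wd V s j (ξ y) - v)
          have h6 := norm_add_le (ch c • rel1 V S T s j 2 (ξ y))
            (S (nx s j) (ch c • wd V s j (ξ y) - v))
          rw [norm_smul, norm_ch, one_mul, ← h3] at h6
          have h7 := pow_le_pow_left₀ (norm_nonneg _) (h6.trans (add_le_add h4 h5)) 2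
          nlinarith [sq_nonneg (1 / 10 ^ 4 * ‖ξ y‖ - ‖ch c • wd V s j (ξ y) - v‖)]
      _ ≤ _ := by
          rw [sum_add_distrib, ← mul_sum, ← mul_sum, ← PiLp.norm_sq_eq_of_L2]
          nlinarith [sq_nonneg ‖ξ‖]

universe v

theorem all_levels : ∃ ε > 0, ∀ (H : Type v) [NormedAddCommGroup H] [InnerProductSpace ℂ H]
    [CompleteSpace H] [Nontrivial H] (V : Fin 5 → H →L[ℂ] H) (S T : F → H →L[ℂ] H),
    (∀ s, ‖V s‖ ≤ 1) → (∀ j, ‖S j‖ ≤ 1) → (∀ s t k, ‖rel0 V s t k‖ ≤ ε) →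
    (∀ s j k, ‖rel1 V S T s j k‖ ≤ ε) →
    ∀ M, AI (fun s => amp (V s) (gen M s)) (1 / 10 ^ 8) := by
  obtain ⟨ε, hε, h⟩ := gap.{v} (δ := 1 / 10 ^ 8) (by positivity)
  refine ⟨min ε (1 / 10 ^ 4), by positivity, fun H _ _ _ _ V S T hV hS h0 h1 M => ?_⟩
  have h2 := fun M => h _ (fun s => amp (V s) (gen M s))
    (fun s => (norm_amp (V s) (gen M s)).trans (hV s))
    fun s t k => (rel0_amp (grel M) s t k).trans ((h0 s t k).trans (min_le_left _ _))
  have h3 := fun s j k => (h1 s j k).trans (min_le_right _ _)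
  induction M with
  | zero => exact h2 0 (base h3)
  | succ M ih => exact h2 _ (step hV hS h3 (ih.mono (by norm_num)))

end Vale.Agent.P083
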