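import Vale.Agent.P083.Exact
import Vale.Agent.P083.Step

/-! The relations have no approximate solutions in an algebra generated by a Cuntz pair. -/

namespace Vale.Agent.P083
open Finset Filter Topology
open scoped InnerProductSpace ComplexOrder

universe v

lemma nonneg_of_norm {B : Type v} [CStarAlgebra B] [Nontrivial B] [PartialOrder B]
    [StarOrderedRing B] {f : StrongDual ℂ B} (h1 : ‖f‖ = 1) (h2 : f 1 = 1) {x : B} (hx : 0 ≤ x) :
    0 ≤ f x := by
  obtain ⟨y, hy⟩ : ∃ y, y = algebraMap ℝ B ‖x‖ - x := ⟨_, rfl⟩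
  have y0 : 0 ≤ y := hy ▸ sub_nonneg.2 hx.isSelfAdjoint.le_algebraMap_norm_self
  have y1 : ‖y‖ ≤ ‖x‖ := by
    simpa using CStarAlgebra.norm_le_norm_of_nonneg_of_le y0 (hy.trans_le (sub_le_self _ hx))
  have y2 : f y = ‖x‖ - f x := by
    rw [hy, map_sub, Algebra.algebraMap_eq_smul_one, ← Complex.coe_smul, map_smul, h2]
    simp
  have h3 : ∀ t : ℝ, (‖x‖ - (f x).re) ^ 2 + (t - (f x).im) ^ 2 ≤ ‖x‖ ^ 2 + t ^ 2 := fun t => by
    have h4 := f.le_opNorm (y + (t * Complex.I) • 1)
    have h5 := CStarRing.norm_star_mul_self (x := y + (t * Complex.I) • 1)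
    have h6 : star (y + (t * Complex.I) • 1) * (y + (t * Complex.I) • 1) =
        y * y + ((t : ℂ) ^ 2) • 1 := by
      simp only [star_add, star_smul, star_one, y0.isSelfAdjoint.star_eq, mul_add, add_mul,
        mul_smul_comm, smul_mul_assoc, mul_one, one_mul, star_mul, Complex.star_def,
        Complex.conj_I, Complex.conj_ofReal]
      match_scalars
      · ring
      · ring
      · linear_combination (-(t : ℂ) ^ 2) * Complex.I_sq
    have h7 := norm_add_le (y * y) (((t : ℂ) ^ 2) • (1 : B))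
    rw [← h6, h5, norm_smul, norm_one, norm_pow, Complex.norm_real, Real.norm_eq_abs, sq_abs] at h7
    rw [h1, one_mul, map_add, map_smul, h2, y2] at h4
    have h8 := pow_le_pow_left₀ (norm_nonneg _) h4 2
    rw [Complex.sq_norm, Complex.normSq_apply] at h8
    simp only [smul_eq_mul, mul_one, Complex.add_re, Complex.sub_re, Complex.ofReal_re,
      Complex.mul_re, Complex.I_re, mul_zero, Complex.ofReal_im, Complex.I_im, sub_self, add_zero,
      Complex.add_im, Complex.sub_im, zero_sub, Complex.mul_im] at h8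
    nlinarith [norm_mul_le y y, norm_nonneg y]
  have h4 : (f x).im = 0 := by
    by_contra h0
    have := h3 (-(‖x‖ ^ 2 + 1) / (f x).im)
    have h5 : -(‖x‖ ^ 2 + 1) / (f x).im * (f x).im = -(‖x‖ ^ 2 + 1) := by field_simp
    nlinarith [sq_nonneg (‖x‖ - (f x).re), sq_nonneg (f x).im, sq_nonneg ‖x‖]
  have := h3 0
  rw [h4] at this
  exact Complex.nonneg_iff.2 ⟨by nlinarith [norm_nonneg x], h4.symm⟩

lemma exists_rep (B : Type v) [CStarAlgebra B] [Nontrivial B] :
    ∃ (H : Type v) (_ : NormedAddCommGroup H) (_ : InnerProductSpace ℂ H) (_ : CompleteSpace H),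
      Nontrivial H ∧ Nonempty (B →⋆ₐ[ℂ] H →L[ℂ] H) := by
  let _ := CStarAlgebra.spectralOrder B
  have _ := CStarAlgebra.spectralOrderedRing B
  obtain ⟨f, h1, h2⟩ := exists_dual_vector ℂ (1 : B) (by simp)
  rw [norm_one, RCLike.ofReal_one] at h2
  let g : B →ₚ[ℂ] ℂ := .mk₀ f.toLinearMap fun x hx => nonneg_of_norm h1 h2 hx
  refine ⟨g.GNS, inferInstance, inferInstance, inferInstance,
    nontrivial_of_ne (g.toPreGNS 1 : g.GNS) 0 fun h => ?_, ⟨g.gnsStarAlgHom⟩⟩
  have h3 := g.preGNS_norm_sq (g.toPreGNS 1)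
  rw [← UniformSpace.Completion.norm_coe, h, g.ofPreGNS_toPreGNS, star_one, mul_one] at h3
  change _ = f 1 at h3
  simp [h2] at h3

theorem no_approx : ∃ ε > 0, ∀ (B : Type v) [CStarAlgebra B] [Nontrivial B] (s t : B),
    star s * s = 1 → star t * t = 1 → s * star s + t * star t = 1 →
    (StarAlgebra.adjoin ℂ {s, t}).topologicalClosure = ⊤ → ∀ (V : Fin 5 → B) (S T : F → B),
    (∀ s, ‖V s‖ ≤ 1) → (∀ j, ‖S j‖ ≤ 1) → (∀ s t k, ‖rel0 V s t k‖ ≤ ε) →
    (∀ s j k, ‖rel1 V S T s j k‖ ≤ ε) → False := by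
  obtain ⟨ε, hε, h⟩ := all_levels.{v}
  refine ⟨ε, hε, fun B _ _ s t hs ht hst hg V S T hV hS h0 h1 => ?_⟩
  obtain ⟨H, _, _, _, _, ⟨π⟩⟩ := exists_rep B
  have hπ : ∀ {x : B} {c : ℝ}, ‖x‖ ≤ c → ‖π x‖ ≤ c := fun hx =>
    (NonUnitalStarAlgHom.norm_apply_le π _).trans hx
  have h2 := h H (fun s => π (V s)) (fun j => π (S j)) (fun j => π (T j)) (fun s => hπ (hV s))
    (fun j => hπ (hS j)) (fun s t k => by rw [← map_rel0]; exact hπ (h0 s t k))
    fun s j k => by rw [← map_rel1]; exact hπ (h1 s j k)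
  have h3 : star s * t = 0 := by
    have h4 : star (star s * t) * (star s * t) = 0 := by
      have := congrArg (fun x => star t * x * t) hst
      simp only [mul_add, add_mul, ← mul_assoc, ht, one_mul, mul_one] at this
      rw [add_eq_right] at this
      rw [star_mul, star_star, ← mul_assoc, this]
    exact (CStarRing.star_mul_self_eq_zero_iff _).1 h4
  have h4 : star t * s = 0 := by simpa using congrArg star h3
  have hC : Cu ![π s, π t] := ⟨fun i j η => by
    rw [← ContinuousLinearMap.mul_apply]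
    fin_cases i <;> fin_cases j <;> simp [← map_star, ← map_mul, hs, ht, h3, h4], fun η => by
    have := congrArg (fun x => π x η) hst
    simpa [map_star] using this⟩
  obtain ⟨Θ, t1, t2, t3⟩ := hC.exists_theta
  have h5 : ∀ x, π x ∈ good Θ := fun x => by
    have hx : x ∈ closure (StarAlgebra.adjoin ℂ {s, t} : Set B) := by
      change x ∈ (StarAlgebra.adjoin ℂ {s, t}).topologicalClosure
      rw [hg]; trivial
    refine closure_minimal (t := π ⁻¹' good Θ) (fun y hy => ?_)
      ((closed_good0 _ _ t1).preimage (AddMonoidHomClass.continuous_of_bound π 1 fun x => hπ (one_mul _).ge)) hx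
    have h6 : y ∈ Algebra.adjoin ℂ ({s, t} ∪ star {s, t} : Set B) := by
      rw [← StarAlgebra.adjoin_toSubalgebra]; exact hy
    refine Algebra.adjoin_le (S := (good Θ).comap π.toAlgHom) ?_ h6
    rintro z ((rfl | rfl) | hz)
    · exact (t3 0).1
    · exact (t3 1).1
    · rw [← star_star z]
      change π _ ∈ good Θ
      rcases hz with hz | hz <;> rw [hz, map_star]
      exacts [(t3 0).2, (t3 1).2]
  obtain ⟨n, hn⟩ := (eventually_all.2 fun s => of_mem_good0 _ _ (h5 (V s))
    (ε := 1 / 10 ^ 8) (by positivity)).exists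
  obtain ⟨L, _, hL⟩ := t2 n
  exact not_AI (t1 n) hL (fun s => hπ (hV s)) hn le_rfl (h2 _)

end Vale.Agent.P083
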