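import Mathlib

/-! Norm ultraproducts of C*-algebras. -/

namespace Vale.Agent.P083
open Filter Topology
open scoped ENNReal

variable (E : ℕ → Type*) [∀ n, CStarAlgebra (E n)] [∀ n, Nontrivial (E n)] (ω : Ultrafilter ℕ)

/-- Bounded sequences whose norms tend to zero along `ω`. -/
def nullIdeal : Ideal (lp E ∞) where
  carrier := {x | Tendsto (fun n => ‖x n‖) ω (𝓝 0)}
  zero_mem' := by simp
  add_mem' := fun {x y} hx hy =>
    squeeze_zero (fun _ => norm_nonneg _) (fun n => norm_add_le (x n) (y n))
      (by simpa using hx.add hy)
  smul_mem' := fun c x hx =>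
    squeeze_zero (fun _ => norm_nonneg _) (fun n => (norm_mul_le (c n) (x n)).trans
      (mul_le_mul_of_nonneg_right (lp.norm_apply_le_norm ENNReal.top_ne_zero c n) (norm_nonneg _)))
      (by simpa using hx.const_mul ‖c‖)

instance : (nullIdeal E ω).IsTwoSided where
  mul_mem_of_left := fun {x} c hx =>
    squeeze_zero (fun _ => norm_nonneg _) (fun n => (norm_mul_le (x n) (c n)).trans
      (mul_le_mul_of_nonneg_left (lp.norm_apply_le_norm ENNReal.top_ne_zero c n) (norm_nonneg _)))
      (by simpa using hx.mul_const ‖c‖)

/-- The norm ultraproduct: bounded sequences modulo null sequences. -/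
abbrev Ultraprod := lp E ∞ ⧸ nullIdeal E ω

/-- The involution of the ultraproduct, induced by the termwise involution. -/
noncomputable instance : Star (Ultraprod E ω) where
  star := Quotient.map' star fun x y h => by
    rw [Submodule.quotientRel_def] at h ⊢
    rw [← star_sub]
    exact h.congr fun n => (norm_star ((x - y) n)).symm

end Vale.Agent.P083
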