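import Vale.Agent.P083.Theta

/-! No almost invariant vectors at high levels for operators generated by a Cuntz pair. -/

namespace Vale.Agent.P083
open Finset Filter Topology TensorProduct
open scoped InnerProductSpace

variable {H : Type*} [NormedAddCommGroup H] [InnerProductSpace ℂ H]

section
variable {K : Type*} [NormedAddCommGroup K] [NormedSpace ℂ K] (ψ : (H →L[ℂ] H) →ₐ[ℂ] K →L[ℂ] K)
  (hψ : ∀ x, ‖ψ x‖ ≤ ‖x‖)

/-- The commutator with an intertwiner. -/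
noncomputable def Cm0 (Θ : H →L[ℂ] K) : (H →L[ℂ] H) →L[ℂ] H →L[ℂ] K :=
  LinearMap.mkContinuous
    { toFun x := ψ x ∘L Θ - Θ ∘L x
      map_add' x y := by ext; simp; abel
      map_smul' c x := by ext; simp [smul_sub] } (2 * ‖Θ‖) fun x => by
    have h1 := (ψ x).opNorm_comp_le Θ
    have h2 := Θ.opNorm_comp_le x
    have h3 := mul_le_mul_of_nonneg_right (hψ x) (norm_nonneg Θ)
    exact (norm_sub_le (ψ x ∘L Θ) (Θ ∘L x)).trans (by linarith)

lemma Cm0_apply (Θ : H →L[ℂ] K) (x : H →L[ℂ] H) (η : H) :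
    Cm0 ψ hψ Θ x η = ψ x (Θ η) - Θ (x η) := rfl

/-- Operators that commute in the limit. -/
noncomputable def good0 (Θ : ℕ → H →L[ℂ] K) : Subalgebra ℂ (H →L[ℂ] H) :=
  (P070.limS fun n => Cm0 ψ hψ (Θ n)).toSubalgebra
    (tendsto_const_nhds.congr fun n => by ext; simp [Cm0_apply]) fun x y hx hy => by
      have h1 := (tendsto_zero_iff_norm_tendsto_zero.1 hx).mul_const ‖y‖
      have h2 := (tendsto_zero_iff_norm_tendsto_zero.1 hy).const_mul ‖x‖
      refine squeeze_zero_norm (fun n => ?_) (by simpa using h1.add h2)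
      have : Cm0 ψ hψ (Θ n) (x * y) = Cm0 ψ hψ (Θ n) x ∘L y + ψ x ∘L Cm0 ψ hψ (Θ n) y := by
        ext
        simp [Cm0_apply]
      rw [this]
      exact norm_add_le_of_le (ContinuousLinearMap.opNorm_comp_le _ _)
        ((ContinuousLinearMap.opNorm_comp_le _ _).trans
          (mul_le_mul_of_nonneg_right (hψ x) (norm_nonneg _)))

lemma closed_good0 {Θ : ℕ → H →L[ℂ] K} (h : ∀ n η, ‖Θ n η‖ = ‖η‖) :
    IsClosed (good0 ψ hψ Θ : Set (H →L[ℂ] H)) :=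
  P070.isClosed_limS (C := 2) fun n => by
    have := (Θ n).opNorm_le_bound zero_le_one fun η => by rw [h, one_mul]
    exact (LinearMap.mkContinuous_norm_le _ (by positivity) _).trans (by linarith)

lemma mem_good0 {Θ : ℕ → H →L[ℂ] K} {x : H →L[ℂ] H} {c : ℕ → ℝ} (c0 : ∀ n, 0 ≤ c n)
    (c1 : Tendsto c atTop (𝓝 0)) (h : ∀ n η, ‖ψ x (Θ n η) - Θ n (x η)‖ ≤ c n * ‖η‖) :
    x ∈ good0 ψ hψ Θ :=
  squeeze_zero_norm (fun n => ContinuousLinearMap.opNorm_le_bound _ (c0 n) (h n)) c1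

lemma of_mem_good0 {Θ : ℕ → H →L[ℂ] K} {x : H →L[ℂ] H} (h : x ∈ good0 ψ hψ Θ) {ε : ℝ}
    (hε : 0 < ε) : ∀ᶠ n in atTop, ∀ η, ‖ψ x (Θ n η) - Θ n (x η)‖ ≤ ε * ‖η‖ :=
  ((tendsto_zero_iff_norm_tendsto_zero.1 h).eventually (ge_mem_nhds hε)).mono fun n hn η =>
    (Cm0 ψ hψ (Θ n) x).le_of_opNorm_le hn η

end

/-- Tensoring with the identity. -/
noncomputable def rT : (H →L[ℂ] H) →ₐ[ℂ] H ⊗[ℂ] H →L[ℂ] H ⊗[ℂ] H :=
  AlgHom.ofLinearMap
    { toFun x := x.rTensor H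
      map_add' := ContinuousLinearMap.rTensor_add H
      map_smul' := ContinuousLinearMap.rTensor_smul H }
    (ContinuousLinearMap.rTensor_one H) (ContinuousLinearMap.rTensor_mul H)

/-- Operators that commute in the limit. -/
noncomputable def good (Θ : ℕ → H →L[ℂ] H ⊗[ℂ] H) : Subalgebra ℂ (H →L[ℂ] H) :=
  good0 rT (fun x => x.norm_rTensor_le H) Θ

/-- The commutator. -/
noncomputable def Cm (Θ : H →L[ℂ] H ⊗[ℂ] H) (x : H →L[ℂ] H) (η : H) : H ⊗[ℂ] H :=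
  x.rTensor H (Θ η) - Θ (x η)

lemma Cm_apply (Θ : H →L[ℂ] H ⊗[ℂ] H) (x : H →L[ℂ] H) (η : H) :
    Cm Θ x η = x.rTensor H (Θ η) - Θ (x η) := rfl

variable [CompleteSpace H]

theorem not_AI {Θ : H →L[ℂ] H ⊗[ℂ] H} (h1 : ∀ η, ‖Θ η‖ = ‖η‖) {L : Submodule ℂ H}
    [FiniteDimensional ℂ L] (h2 : ∀ e η, fib e (Θ η) ∈ L) {V : Fin 5 → H →L[ℂ] H}
    (hV : ∀ s, ‖V s‖ ≤ 1) (h3 : ∀ s η, ‖Cm Θ (V s) η‖ ≤ 1 / 10 ^ 8 * ‖η‖) {M : ℕ}
    (hM : 2 * Module.finrank ℂ L ≤ M) : ¬AI (fun s => amp (V s) (gen M s)) (1 / 10 ^ 8) := by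
  rintro ⟨T, T0, hT⟩
  obtain ⟨n, b, hb, h4⟩ := exists_fib fun y => Θ (T y)
  obtain ⟨τ, hτ⟩ : ∃ τ : Fin n → L2 (Yl M) H, ∀ l y, τ l y = fib (b l) (Θ (T y)) :=
    ⟨fun l => WithLp.toLp 2 fun y => fib (b l) (Θ (T y)), fun _ _ => rfl⟩
  have h5 : ∑ l, ‖τ l‖ ^ 2 = ‖T‖ ^ 2 := by
    simp only [PiLp.norm_sq_eq_of_L2, hτ]
    rw [sum_comm]
    exact sum_congr rfl fun y _ => by rw [← h4, h1]
  have h6 : ∀ s, ∑ l, ‖amp (V s) (gen M s) (τ l) - τ l‖ ^ 2 ≤ 4 / 10 ^ 16 * ‖T‖ ^ 2 := fun s => by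
    have h7 := pow_le_pow_left₀ (norm_nonneg _) (hT s) 2
    rw [normsq_amp] at h7
    simp only [normsq_amp, hτ]
    rw [sum_comm]
    calc _ ≤ ∑ y, (2 * (1 / 10 ^ 8) ^ 2 * ‖T y‖ ^ 2 +
          2 * ‖ch ((gen M s).c y) • V s (T y) - T ((gen M s).σ y)‖ ^ 2) := by
          refine sum_le_sum fun y _ => ?_
          generalize (gen M s).c y = c
          generalize T ((gen M s).σ y) = v
          simp only [← fib_rT, ← map_smul (fib _), ← map_sub]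
          refine (fib_bessel hb _).trans ?_
          have h8 : ch c • (V s).rTensor H (Θ (T y)) - Θ v =
              ch c • Cm Θ (V s) (T y) + Θ (ch c • V s (T y) - v) := by
            rw [Cm_apply, map_sub, map_smul, smul_sub]
            abel
          have h9 := norm_add_le (ch c • Cm Θ (V s) (T y)) (Θ (ch c • V s (T y) - v))
          rw [norm_smul, norm_ch, one_mul, h1] at h9
          have h10 := pow_le_pow_left₀ (norm_nonneg _) (h9.trans (add_le_add_left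
            (h3 s (T y)) _)) 2
          rw [← h8] at h10
          nlinarith [sq_nonneg (1 / 10 ^ 8 * ‖T y‖ - ‖ch c • V s (T y) - v‖)]
      _ ≤ _ := by
          rw [sum_add_distrib, ← mul_sum, ← mul_sum, ← PiLp.norm_sq_eq_of_L2]
          nlinarith [sq_nonneg ‖T‖]
  have h7 : ∀ l, 1 / 10 ^ 14 * ‖τ l‖ ^ 2 ≤ ∑ s, ‖amp (V s) (gen M s) (τ l) - τ l‖ ^ 2 := fun l => by
    by_cases h0 : τ l = 0
    · simp [h0]
    obtain ⟨s, hs⟩ : ∃ s, 1 / 10 ^ 7 * ‖τ l‖ < ‖amp (V s) (gen M s) (τ l) - τ l‖ := by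
      by_contra! hc
      exact h0 (low hV hM (fun y => by rw [hτ]; exact h2 _ _) hc)
    refine le_trans ?_ (single_le_sum (f := fun s => ‖amp (V s) (gen M s) (τ l) - τ l‖ ^ 2)
      (fun _ _ => sq_nonneg _) (mem_univ s))
    have := pow_le_pow_left₀ (by positivity) hs.le 2
    linarith
  have h8 := sum_le_sum (s := univ) fun l _ => h7 l
  rw [← mul_sum, h5, sum_comm] at h8
  have h9 := h8.trans (sum_le_sum fun s _ => h6 s)
  simp only [sum_const, card_univ, Fintype.card_fin, nsmul_eq_mul, Nat.cast_ofNat] at h9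
  have := pow_pos (norm_pos_iff.2 T0) 2
  linarith

theorem Cu.exists_theta [Nontrivial H] {S : Fin 2 → H →L[ℂ] H} (h : Cu S) :
    ∃ Θ : ℕ → H →L[ℂ] H ⊗[ℂ] H, (∀ n η, ‖Θ n η‖ = ‖η‖) ∧
      (∀ n, ∃ L : Submodule ℂ H, FiniteDimensional ℂ L ∧ ∀ e η, fib e (Θ n η) ∈ L) ∧
      ∀ i, S i ∈ good Θ ∧ star (S i) ∈ good Θ := by
  obtain ⟨ξ, hξ⟩ := exists_norm_eq H zero_le_one
  obtain ⟨a, ha⟩ : ∃ a : ℕ → H, ∀ n, a n = (S 0 ^ (n + 1)) (S 1 ξ) := ⟨_, fun _ => rfl⟩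
  obtain ⟨c, hc⟩ : ∃ c : ℕ → ℝ, ∀ n, c n = √(1 / (n + 1)) := ⟨_, fun _ => rfl⟩
  have c0 : ∀ n, 0 ≤ c n := fun n => hc n ▸ Real.sqrt_nonneg _
  have c1 : Tendsto c atTop (𝓝 0) := by
    simpa [funext hc] using tendsto_one_div_add_atTop_nhds_zero_nat.sqrt
  obtain ⟨Θ, hΘ⟩ : ∃ Θ : ℕ → H →L[ℂ] H ⊗[ℂ] H, ∀ n η,
      Θ n η = (c n : ℂ) • ∑ k ∈ range (n + 1), th S (a n) k η :=
    ⟨fun n => (c n : ℂ) • ∑ k ∈ range (n + 1), th S (a n) k, fun _ _ => by simp⟩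
  have n1 : ∀ n k η, ‖th S (a n) k η‖ = ‖η‖ := fun n k η => by
    rw [@norm_eq_sqrt_re_inner ℂ, h.inner_th, ← norm_eq_sqrt_re_inner]
    rw [ha, @norm_eq_sqrt_re_inner ℂ, h.inner_pow, ← norm_eq_sqrt_re_inner, h.norm_S, hξ]
  have n2 : ∀ n i η, ‖Cm (Θ n) (S i) η‖ ≤ 2 * c n * ‖η‖ := fun n i η => by
    have : Cm (Θ n) (S i) η = (c n : ℂ) • (th S (a n) (n + 1) (S i η) - th S (a n) 0 (S i η)) := by
      rw [Cm_apply, hΘ, hΘ, map_smul, ← smul_sub, map_sum, ← sum_sub_distrib]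
      simp only [← h.th_S]
      rw [sum_range_sub fun k => th S (a n) k (S i η)]
    rw [this, norm_smul, Complex.norm_real, Real.norm_of_nonneg (c0 n)]
    have := norm_sub_le (th S (a n) (n + 1) (S i η)) (th S (a n) 0 (S i η))
    rw [n1, n1, h.norm_S] at this
    nlinarith [c0 n]
  have n3 : ∀ i, ‖star (S i)‖ ≤ 1 := fun i => by
    rw [norm_star]
    exact ContinuousLinearMap.opNorm_le_bound _ zero_le_one fun η => by rw [h.norm_S, one_mul]
  refine ⟨Θ, fun n η => ?_, fun n => ?_, fun i => ⟨?_, ?_⟩⟩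
  · rw [← sq_eq_sq₀ (norm_nonneg _) (norm_nonneg _), hΘ, norm_smul, mul_pow, ha,
      h.norm_sum hξ le_rfl, Complex.norm_real, Real.norm_of_nonneg (c0 n), hc,
      Real.sq_sqrt (by positivity)]
    push_cast
    field_simp
  · choose L hL hL' using fin_th S (a n)
    refine ⟨(range (n + 1)).sup L, inferInstance, fun e η => ?_⟩
    rw [hΘ, map_smul, map_sum]
    exact Submodule.smul_mem _ _ (Submodule.sum_mem _ fun k hk => le_sup (f := L) hk (hL' k e η))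
  · exact mem_good0 _ _ (fun n => by have := c0 n; positivity) (by simpa using c1.const_mul 2)
      fun n => n2 n i
  · refine mem_good0 _ _ (c := fun n => 4 * c n) (fun n => by have := c0 n; positivity)
      (by simpa using c1.const_mul 4) fun n η => ?_
    change ‖Cm (Θ n) (star (S i)) η‖ ≤ _
    have h1 : Cm (Θ n) (star (S i)) η =
        -(star (S i)).rTensor H (∑ j, Cm (Θ n) (S j) (star (S j) η)) := by
      simp only [Cm_apply, sum_sub_distrib, ← map_sum (Θ n), h.r, map_sub, map_sum _ _ univ, h.rT,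
        sum_ite_eq, mem_univ, if_true, neg_sub]
    have h2 := fun j => (n2 n j (star (S j) η)).trans (mul_le_mul_of_nonneg_left
      ((star (S j)).le_of_opNorm_le (n3 j) η) (by have := c0 n; positivity))
    have h3 := ((star (S i)).rTensor H).le_of_opNorm_le
      (((star (S i)).norm_rTensor_le H).trans (n3 i)) (∑ j, Cm (Θ n) (S j) (star (S j) η))
    rw [h1, norm_neg]
    refine h3.trans ?_
    rw [one_mul, Fin.sum_univ_two]
    linarith [norm_add_le (Cm (Θ n) (S 0) (star (S 0) η)) (Cm (Θ n) (S 1) (star (S 1) η)),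
      h2 0, h2 1]

end Vale.Agent.P083
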