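import Mathlib

/-! The norm ultrapower of a C*-algebra. -/

namespace Vale.Agent.P083
open Filter Topology BoundedContinuousFunction

variable (B : Type*) [CStarAlgebra B] (ω : Ultrafilter ℕ)

/-- Two bounded sequences are identified when their distance tends to zero along `ω`. -/
def nullCon : RingCon (ℕ →ᵇ B) where
  r x y := Tendsto (fun n => ‖x n - y n‖) ω (𝓝 0)
  iseqv := ⟨fun _ => by simp, fun h => h.congr fun _ => norm_sub_rev _ _, fun {x y z} h h' =>
    squeeze_zero (fun _ => norm_nonneg _) (fun n => norm_sub_le_norm_sub_add_norm_sub _ (y n) _)
      (by simpa using h.add h')⟩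
  add' := fun {w x y z} h h' => by
    refine squeeze_zero (fun _ => norm_nonneg _) (fun n => ?_) (by simpa using h.add h')
    simpa only [dist_eq_norm, BoundedContinuousFunction.add_apply] using
      dist_add_add_le (w n) (y n) (x n) (z n)
  mul' := fun {w x y z} h h' => by
    refine squeeze_zero (fun _ => norm_nonneg _) (fun n => ?_)
      (by simpa using (h.mul_const ‖y‖).add (h'.const_mul ‖x‖))
    have : w n * y n - x n * z n = (w n - x n) * y n + x n * (y n - z n) := by noncomm_ring
    rw [mul_apply, mul_apply, this]
    exact norm_add_le_of_le ((norm_mul_le _ _).trans (by gcongr; exact y.norm_coe_le_norm n))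
      ((norm_mul_le _ _).trans (by gcongr; exact x.norm_coe_le_norm n))

/-- The norm ultrapower: bounded sequences modulo null sequences. -/
abbrev Ultrapower := (nullCon B ω).Quotient

/-- The involution of the ultrapower, induced by the termwise involution. -/
noncomputable instance : Star (Ultrapower B ω) where
  star := Quotient.map' star fun x y h => Tendsto.congr (fun n => by
    rw [← norm_star, star_sub]; rfl) h

end Vale.Agent.P083
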