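import Vale.Agent.P083.Model
import Vale.Agent.P083.Power

/-! The main theorem for other presentations of the ultrapower. -/

namespace Vale.Agent.P083
open Filter Topology BoundedContinuousFunction
open scoped ENNReal

universe v w

/-- Bounded functions as elements of `lp`. -/
noncomputable def toLp (B : Type v) [CStarAlgebra B] [Nontrivial B] :
    (ℕ →ᵇ B) →⋆ₐ[ℂ] lp (fun _ : ℕ => B) ∞ where
  toFun x := ⟨fun n => x n, memℓp_infty ⟨‖x‖, by rintro _ ⟨n, rfl⟩; exact x.norm_coe_le_norm n⟩⟩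
  map_one' := rfl
  map_mul' _ _ := rfl
  map_zero' := rfl
  map_add' _ _ := rfl
  commutes' _ := rfl
  map_star' _ := rfl

lemma exists_hom {B : Type v} [CStarAlgebra B] [Nontrivial B] {ω : Ultrafilter ℕ} {Q : Type w}
    [Ring Q] [Star Q] [Algebra ℂ Q] (q : (ℕ →ᵇ B) →⋆ₐ[ℂ] Q) (h1 : Function.Surjective q)
    (h2 : ∀ x, q x = 0 → Tendsto (fun n => ‖x n‖) ω (𝓝 0)) :
    Nonempty (Q →⋆ₐ[ℂ] Ultraprod (fun _ => B) ω) := by
  obtain ⟨f, hf⟩ : ∃ f : Q → Ultraprod (fun _ => B) ω, ∀ x, f (q x) = mkU _ ω (toLp B x) :=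
    ⟨fun c => mkU _ ω (toLp B (Function.surjInv h1 c)), fun x => by
      rw [← sub_eq_zero, ← map_sub, ← map_sub, mkU_eq_zero]
      exact h2 (Function.surjInv h1 (q x) - x)
        (by rw [map_sub, Function.surjInv_eq h1, sub_self])⟩
  refine ⟨⟨⟨⟨⟨⟨f, ?_⟩, ?_⟩, ?_, ?_⟩, fun c => ?_⟩, ?_⟩⟩
  · rw [← map_one q, hf, map_one, map_one]
  · simp only [h1.forall, ← map_mul, hf, implies_true]
  · change f 0 = 0
    rw [← map_zero q, hf, map_zero, map_zero]
  · change ∀ x y, f (x + y) = f x + f y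
    simp only [h1.forall, ← map_add, hf, implies_true]
  · change f _ = _
    rw [← AlgHomClass.commutes q, hf, AlgHomClass.commutes, AlgHomClass.commutes]
  · change ∀ x, f (star x) = star (f x)
    simp only [h1.forall, ← map_star, hf, implies_true]

/-- The quotient map. -/
noncomputable def mkP (B : Type v) [CStarAlgebra B] (ω : Ultrafilter ℕ) :
    (ℕ →ᵇ B) →⋆ₐ[ℂ] Ultrapower B ω where
  __ := (nullCon B ω).mk'
  commutes' _ := rfl
  map_star' _ := rfl

lemma exists_homP {B : Type v} [CStarAlgebra B] [Nontrivial B] (ω : Ultrafilter ℕ) :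
    Nonempty (Ultrapower B ω →⋆ₐ[ℂ] Ultraprod (fun _ => B) ω) :=
  exists_hom (mkP B ω) (nullCon B ω).mk'_surjective fun x hx => by
    have : Tendsto (fun n => ‖x n - (0 : ℕ →ᵇ B) n‖) ω (𝓝 0) := (nullCon B ω).eq.1 hx
    simpa using this

end Vale.Agent.P083
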