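import Vale.Agent.P083.Ultra

/-! The spectral gap in terms of almost invariant vectors. -/

namespace Vale.Agent.P083
open Finset
open scoped InnerProductSpace

/-- There is an almost invariant vector. -/
def AI {K : Type*} [NormedAddCommGroup K] [NormedSpace ℂ K] (W : Fin 5 → K →L[ℂ] K) (δ : ℝ) :
    Prop := ∃ T ≠ 0, ∀ s, ‖W s T - T‖ ≤ δ * ‖T‖

lemma AI.mono {K : Type*} [NormedAddCommGroup K] [NormedSpace ℂ K] {W : Fin 5 → K →L[ℂ] K}
    {a b : ℝ} (h : AI W a) (hab : a ≤ b) : AI W b := by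
  obtain ⟨T, h0, h⟩ := h
  exact ⟨T, h0, fun s => (h s).trans (by gcongr)⟩

lemma norm_pow_sub {K : Type*} [NormedAddCommGroup K] [NormedSpace ℂ K] {W : K →L[ℂ] K}
    (hW : ‖W‖ ≤ 1) (T : K) (k : ℕ) : ‖(W ^ k) T - T‖ ≤ k * ‖W T - T‖ := by
  induction k with
  | zero => simp
  | succ k ih =>
    have h1 : (W ^ (k + 1)) T - T = W ((W ^ k) T - T) + (W T - T) := by
      rw [pow_succ', map_sub, ContinuousLinearMap.mul_apply]; abel
    have h2 := W.le_of_opNorm_le hW ((W ^ k) T - T)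
    rw [h1, Nat.cast_succ]
    linarith [norm_add_le (W ((W ^ k) T - T)) (W T - T)]

variable {K : Type*} [NormedAddCommGroup K] [InnerProductSpace ℂ K]

lemma re_sub_le (T S : K) : ‖T‖ ^ 2 - (⟪T, S⟫_ℂ).re ≤ ‖T‖ * ‖S - T‖ := by
  have h1 := re_inner_le_norm (𝕜 := ℂ) T (T - S)
  rw [inner_sub_right, map_sub, inner_self_eq_norm_sq, norm_sub_rev] at h1
  exact h1

lemma norm_sub_sq_le {T S : K} (h : ‖S‖ ≤ ‖T‖) : ‖S - T‖ ^ 2 ≤ 2 * (‖T‖ ^ 2 - (⟪T, S⟫_ℂ).re) := by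
  have h1 := norm_sub_sq (𝕜 := ℂ) T S
  rw [norm_sub_rev] at h1
  have h2 : RCLike.re ⟪T, S⟫_ℂ = (⟪T, S⟫_ℂ).re := rfl
  nlinarith [norm_nonneg S]

variable [CompleteSpace K]

lemma re_herm (W : Fin 5 → K →L[ℂ] K) (T : K) : (⟪T, herm W T⟫_ℂ).re =
    ∑ s, 1 / 29 * ∑ k ∈ range 29, (‖T‖ ^ 2 - (⟪T, (W s ^ k) T⟫_ℂ).re) := by
  rw [herm, ContinuousLinearMap.sum_apply, inner_sum, Complex.re_sum]
  refine sum_congr rfl fun s _ => ?_
  have h1 : (⟪T, star (av (W s)) T⟫_ℂ).re = (⟪T, av (W s) T⟫_ℂ).re := by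
    rw [ContinuousLinearMap.star_eq_adjoint, ContinuousLinearMap.adjoint_inner_right,
      ← inner_conj_symm, Complex.conj_re]
  have h2 : (⟪T, av (W s) T⟫_ℂ).re = 1 / 29 * ∑ k ∈ range 29, (⟪T, (W s ^ k) T⟫_ℂ).re := by
    rw [av, ContinuousLinearMap.smul_apply, ContinuousLinearMap.sum_apply, inner_smul_right,
      inner_sum, ← Complex.re_sum]
    simp
  have h3 : (⟪T, T⟫_ℂ).re = ‖T‖ ^ 2 := inner_self_eq_norm_sq (𝕜 := ℂ) T
  rw [ContinuousLinearMap.sub_apply, ContinuousLinearMap.smul_apply, ContinuousLinearMap.add_apply,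
    inner_sub_right, inner_smul_right, inner_add_right, ContinuousLinearMap.one_apply,
    Complex.sub_re, h3, sum_sub_distrib, mul_sub, ← h2, Complex.mul_re, Complex.add_re, h1]
  simp
  ring

lemma le_spec_iff {D : K →L[ℂ] K} (hD : IsSelfAdjoint D) (c : ℝ) :
    (∀ t ∈ spectrum ℝ D, c ≤ t) ↔ ∀ T, c * ‖T‖ ^ 2 ≤ (⟪T, D T⟫_ℂ).re := by
  have h0 : ∀ T, ((D - algebraMap ℝ _ c).reApplyInnerSelf T) = (⟪T, D T⟫_ℂ).re - c * ‖T‖ ^ 2 := by
    intro T
    have h3 : (⟪T, T⟫_ℂ).re = ‖T‖ ^ 2 := inner_self_eq_norm_sq (𝕜 := ℂ) T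
    rw [ContinuousLinearMap.reApplyInnerSelf_apply, inner_re_symm, ContinuousLinearMap.sub_apply,
      inner_sub_right, Algebra.algebraMap_eq_smul_one, ContinuousLinearMap.smul_apply,
      ContinuousLinearMap.one_apply, ← Complex.coe_smul, inner_smul_right, ← h3]
    simp
  rw [← algebraMap_le_iff_le_spectrum hD, ContinuousLinearMap.le_def,
    ContinuousLinearMap.isPositive_def']
  simp only [h0, sub_nonneg]
  exact and_iff_right (hD.sub (IsSelfAdjoint.algebraMap _ (IsSelfAdjoint.all c)))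

universe v

theorem gap {δ : ℝ} (hδ : 0 < δ) : ∃ ε > 0, ∀ (K : Type v) [NormedAddCommGroup K]
    [InnerProductSpace ℂ K] [CompleteSpace K] (W : Fin 5 → K →L[ℂ] K), (∀ s, ‖W s‖ ≤ 1) →
    (∀ s t k, ‖rel0 W s t k‖ ≤ ε) → AI W (1 / 1000) → AI W δ := by
  obtain ⟨ε, hε, h⟩ := gapC.{v} (θ := min (δ ^ 2 / 58) (1 / 20)) (by positivity)
  refine ⟨ε, hε, fun K _ _ _ W h1 h2 ⟨T, T0, hT⟩ => ?_⟩
  by_contra hc
  have hp : ∀ s k (T : K), ‖(W s ^ k) T‖ ≤ ‖T‖ := fun s k T => by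
    have : ‖W s ^ k‖ ≤ 1 := by
      cases k with
      | zero => exact ContinuousLinearMap.norm_id_le
      | succ k => exact (norm_pow_le' _ k.succ_pos).trans (pow_le_one₀ (norm_nonneg _) (h1 s))
    simpa using (W s ^ k).le_of_opNorm_le this T
  have h3 : ∀ t ∈ spectrum ℝ (herm W), δ ^ 2 / 58 ≤ t := by
    rw [le_spec_iff (herm_sa W)]
    intro S
    by_cases hS : S = 0
    · simp [hS]
    obtain ⟨s, hs⟩ : ∃ s, δ * ‖S‖ < ‖W s S - S‖ := by
      by_contra! h'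
      exact hc ⟨S, hS, h'⟩
    have h4 : ∀ s k, 0 ≤ ‖S‖ ^ 2 - (⟪S, (W s ^ k) S⟫_ℂ).re := fun s k => by
      linarith [norm_sub_sq_le (hp s k S), sq_nonneg ‖(W s ^ k) S - S‖]
    have h5 := single_le_sum (s := range 29) (fun k _ => h4 s k) (a := 1) (by simp)
    have h6 := norm_sub_sq_le (hp s 1 S)
    have h7 := pow_le_pow_left₀ (by positivity) hs.le 2
    rw [re_herm]
    refine le_trans ?_ (single_le_sum (fun s _ => mul_nonneg (by norm_num)
      (sum_nonneg fun k _ => h4 s k)) (mem_univ s))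
    rw [pow_one] at h5 h6
    nlinarith
  have h4 : ∀ t ∈ spectrum ℝ (herm W), 3 / 20 ≤ t := fun t ht => by
    rcases h _ W h1 h2 t ht with h5 | h5
    · linarith [h3 t ht, min_le_left (δ ^ 2 / 58) (1 / 20)]
    · linarith [min_le_right (δ ^ 2 / 58) (1 / 20)]
  have h5 := (le_spec_iff (herm_sa W) _).1 h4 T
  have h6 : ∀ s, ∀ k ∈ range 29, ‖T‖ ^ 2 - (⟪T, (W s ^ k) T⟫_ℂ).re ≤ 28 / 1000 * ‖T‖ ^ 2 := by
    intro s k hk
    have : (k : ℝ) ≤ 28 := by exact_mod_cast Nat.le_of_lt_succ (mem_range.1 hk)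
    calc _ ≤ _ := re_sub_le _ _
      _ ≤ ‖T‖ * (28 * (1 / 1000 * ‖T‖)) := by
        gcongr
        exact (norm_pow_sub (h1 s) T k).trans (by gcongr; exact hT s)
      _ = _ := by ring
  have h7 := sum_le_sum (s := univ) fun s _ => mul_le_mul_of_nonneg_left (sum_le_sum (h6 s))
    (show (0 : ℝ) ≤ 1 / 29 by norm_num)
  rw [← re_herm] at h7
  simp only [sum_const, card_range, card_univ, Fintype.card_fin, nsmul_eq_mul] at h7
  have := pow_pos (norm_pos_iff.2 T0) 2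
  push_cast at h7
  linarith

/-- In finite dimension an exact solution of the relations with an almost invariant vector has an
invariant vector. -/
theorem gap_fin {K : Type} [NormedAddCommGroup K] [InnerProductSpace ℂ K] [FiniteDimensional ℂ K]
    [CompleteSpace K] {W : Fin 5 → K →L[ℂ] K} (h1 : ∀ s, ‖W s‖ ≤ 1) (h2 : Rel W)
    (h3 : AI W (1 / 1000)) : ∃ T ≠ 0, ∀ s, W s T = T := by
  by_contra hc
  obtain ⟨f, hf⟩ : ∃ f : K →ₗ[ℂ] (Fin 5 → K), ∀ T s, f T s = W s T - T :=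
    ⟨LinearMap.pi fun s => (W s : K →ₗ[ℂ] K) - LinearMap.id, fun _ _ => rfl⟩
  obtain ⟨C, hC, h4⟩ := f.exists_antilipschitzWith (LinearMap.ker_eq_bot'.2 fun T hT => by
    by_contra h0
    exact hc ⟨T, h0, fun s => by rw [← sub_eq_zero, ← hf, hT]; rfl⟩)
  have hC' : (0 : ℝ) < C := hC
  obtain ⟨ε, hε, h⟩ := gap (δ := 1 / (2 * C)) (by positivity)
  obtain ⟨T, T0, hT⟩ := h K W h1 (fun s t k => by rw [h2.rel0, norm_zero]; exact hε.le) h3
  have h5 := ZeroHomClass.bound_of_antilipschitz f h4 T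
  have h6 : ‖f T‖ ≤ 1 / (2 * C) * ‖T‖ :=
    (pi_norm_le_iff_of_nonneg (by positivity)).2 fun s => by rw [hf]; exact hT s
  have h7 : (C : ℝ) * (1 / (2 * C) * ‖T‖) = ‖T‖ / 2 := by field_simp
  have := norm_pos_iff.2 T0
  nlinarith [mul_le_mul_of_nonneg_left h6 hC'.le]

end Vale.Agent.P083
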