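import Vale.Agent.P083.Amp

/-! The generators at each level. -/

namespace Vale.Agent.P083
open Finset

/-- Words of length `M + 1`. -/
abbrev Yl (M : ℕ) := Fin (M + 1) → F

/-- The active positions of a generator. -/
def Act (M : ℕ) (s : Fin 5) (i : ℕ) : Prop :=
  (i = 0 ∧ s.val = 3) ∨ (0 < i ∧ i ≤ M ∧ (i - 1) % 3 = s.val) ∨ (i = M + 1 ∧ s.val = 4)

instance (M : ℕ) (s : Fin 5) (i : ℕ) : Decidable (Act M s i) := by unfold Act; infer_instance

/-- The nilpotent part. -/
def nil (M : ℕ) (s : Fin 5) : Module.End F (ℕ → F) where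
  toFun v i := Nat.casesOn i 0 fun i => if Act M s i then v i else 0
  map_add' v w := by
    funext i
    cases i
    · simp
    · simp only [Pi.add_apply]; split_ifs <;> simp
  map_smul' c v := by
    funext i
    cases i <;> simp

lemma nil_zero (M : ℕ) (s : Fin 5) (v : ℕ → F) : nil M s v 0 = 0 := rfl

lemma nil_succ (M : ℕ) (s : Fin 5) (v : ℕ → F) (i : ℕ) :
    nil M s v (i + 1) = if Act M s i then v i else 0 := rfl

lemma nil_sq (M : ℕ) (s : Fin 5) : nil M s * nil M s = 0 := by
  ext1 v
  funext i
  rcases i with _ | _ | i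
  · rfl
  · simp [nil_succ, nil_zero]
  · simp only [Module.End.mul_apply, nil_succ, LinearMap.zero_apply, Pi.zero_apply]
    split_ifs with h1 h2
    · unfold Act at h1 h2; omega
    all_goals rfl

lemma nil_cube (M : ℕ) (s t : Fin 5) : nil M s * (nil M t * nil M s) = 0 := by
  ext1 v
  funext i
  rcases i with _ | _ | _ | i
  · rfl
  · simp [nil_succ, nil_zero]
  · simp [nil_succ, nil_zero]
  · simp only [Module.End.mul_apply, nil_succ, LinearMap.zero_apply, Pi.zero_apply]
    split_ifs with h1 h2 h3
    · unfold Act at h1 h3; omega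
    all_goals rfl

variable {M : ℕ}

/-- Homogeneous coordinates. -/
def emb (y : Yl M) (t : F) (i : ℕ) : F :=
  Nat.casesOn i 1 fun i => if h : i < M + 1 then y ⟨i, h⟩ else if i = M + 1 then t else 0

lemma emb_zero (y : Yl M) (t : F) : emb y t 0 = 1 := rfl

lemma emb_succ (y : Yl M) (t : F) (i : ℕ) :
    emb y t (i + 1) = if h : i < M + 1 then y ⟨i, h⟩ else if i = M + 1 then t else 0 := rfl

lemma emb_inj {y y' : Yl M} {t t' : F} (h : emb y t = emb y' t') : y = y' ∧ t = t' :=
  ⟨funext fun i => by simpa [emb_succ, i.2] using congrFun h (i + 1),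
    by simpa [emb_succ] using congrFun h (M + 1 + 1)⟩

/-- The action on words. -/
def gs (s : Fin 5) (y : Yl M) : Yl M := fun i => y i + if Act M s i then emb y 0 i else 0

/-- The phase. -/
def gc (s : Fin 5) (y : Yl M) : F := if s.val = 4 then y (Fin.last M) else 0

lemma rep0 (s : Fin 5) (y : Yl M) (t : F) :
    (1 + nil M s) (emb y t) = emb (gs s y) (t + gc s y) := by
  funext i
  rcases i with _ | i
  · simp [nil_zero, emb_zero]
  · simp only [LinearMap.add_apply, Module.End.one_apply, Pi.add_apply, nil_succ, emb_succ]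
    by_cases h1 : i < M + 1
    · simp only [h1, dif_pos, gs]
      congr 2
      rcases i with _ | i
      · rfl
      · simp only [emb_succ, dif_pos (show i < M + 1 by omega)]
    · by_cases h2 : i = M + 1
      · subst h2
        have : Act M s (M + 1) ↔ s.val = 4 := by unfold Act; omega
        simp [emb_succ, gc, this, Fin.last]
      · have : ¬Act M s i := by unfold Act; omega
        simp [h1, h2, this]

lemma nil_inv (M : ℕ) (s : Fin 5) : (1 - nil M s) * (1 + nil M s) = 1 := by
  simp [mul_add, sub_mul, nil_sq]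

/-- The generators. -/
noncomputable def gen (M : ℕ) (s : Fin 5) : PP (Yl M) where
  σ := Equiv.ofBijective (gs s) (Finite.injective_iff_bijective.1 fun y y' h => by
    have h1 : (1 + nil M s) (emb y (gc s y')) = (1 + nil M s) (emb y' (gc s y)) := by
      rw [rep0, rep0, h, add_comm]
    have h2 := congrArg (fun v => (1 - nil M s) v) h1
    simp only [← Module.End.mul_apply, nil_inv] at h2
    exact (emb_inj h2).1)
  c := gc s

/-- A linear map describes a permutation with phases. -/
def Rep (g : PP (Yl M)) (u : Module.End F (ℕ → F)) : Prop :=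
  ∀ y t, u (emb y t) = emb (g.σ y) (t + g.c y)

lemma Rep.mul {g h : PP (Yl M)} {u v : Module.End F (ℕ → F)} (hg : Rep g u) (hh : Rep h v) :
    Rep (g * h) (u * v) := fun y t => by
  rw [Module.End.mul_apply, hh, hg, PP.mul_c, add_assoc, add_comm (h.c y)]
  rfl

lemma Rep.eq {g h : PP (Yl M)} {u v : Module.End F (ℕ → F)} (hg : Rep g u) (hh : Rep h v)
    (e : u = v) : g = h := by
  have := fun y => emb_inj ((hg y 0).symm.trans (e ▸ hh y 0))
  ext1
  · exact Equiv.ext fun y => (this y).1
  · exact funext fun y => by simpa using (this y).2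

lemma rep_one : Rep (1 : PP (Yl M)) 1 := fun y t => by simp

lemma rep_gen (s : Fin 5) : Rep (gen M s) (1 + nil M s) := rep0 s

lemma rep_inv (s : Fin 5) : Rep (gen M s)⁻¹ (1 - nil M s) := fun y t => by
  have h1 := rep_gen s ((gen M s).σ⁻¹ y) (t + (gen M s)⁻¹.c y)
  have h2 := congrArg (fun v => (1 - nil M s) v) h1
  simp only [← Module.End.mul_apply, nil_inv] at h2
  simpa using h2.symm

lemma rep_pow (s : Fin 5) (k : ℕ) : Rep (gen M s ^ k) (1 + (k : F) • nil M s) := by
  induction k with
  | zero => simpa using rep_one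
  | succ k ih =>
    have := ih.mul (rep_gen s)
    rw [← pow_succ] at this
    convert this using 1
    simp [mul_add, add_mul, nil_sq, add_smul, add_assoc]

theorem grel (M : ℕ) : GRel (gen M) where
  p s := (rep_pow s 29).eq rep_one (by rw [show ((29 : ℕ) : F) = 0 from rfl]; simp)
  c s t := by
    have h := (((rep_gen (M := M) s).mul (rep_gen t)).mul (rep_inv s)).mul (rep_inv t)
    have r : ∀ {a b : Module.End F (ℕ → F)}, a * b = 0 → ∀ x, a * (b * x) = 0 := fun h x => by
      rw [← mul_assoc, h, zero_mul]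
    have r' : ∀ {a b c : Module.End F (ℕ → F)}, a * (b * c) = 0 → ∀ x, a * (b * (c * x)) = 0 :=
      fun h x => by rw [← mul_assoc _ _ x, ← mul_assoc _ _ x, h, zero_mul]
    constructor
    · refine (h.mul (rep_gen s)).eq ((rep_gen s).mul h) ?_
      simp only [mul_add, add_mul, mul_sub, sub_mul, mul_one, one_mul, mul_assoc, nil_sq, nil_cube,
        r (nil_sq M _), r' (nil_cube M _ _), mul_zero, zero_mul]
      abel
    · refine (h.mul (rep_gen t)).eq ((rep_gen t).mul h) ?_
      simp only [mul_add, add_mul, mul_sub, sub_mul, mul_one, one_mul, mul_assoc, nil_sq, nil_cube,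
        r (nil_sq M _), r' (nil_cube M _ _), mul_zero, zero_mul]
      abel

lemma gen_zero (s : Fin 5) (y : Yl M) :
    (gen M s).σ y 0 = y 0 + if s.val = 3 then 1 else 0 := by
  have : Act M s 0 ↔ s.val = 3 := by unfold Act; omega
  change gs s y 0 = _
  simp [gs, this, emb_zero]

lemma gen_succ (s : Fin 5) (y : Yl M) (m : Fin M) :
    (gen M s).σ y m.succ = y m.succ + if m.val % 3 = s.val then y m.castSucc else 0 := by
  have : Act M s (m + 1) ↔ m.val % 3 = s.val := by unfold Act; omega
  change gs s y _ = _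
  simp only [gs, Fin.val_succ, this, emb_succ, dif_pos (show m.val < M + 1 by omega)]
  rfl

lemma gen_c (s : Fin 5) (y : Yl M) : (gen M s).c y = if s.val = 4 then y (Fin.last M) else 0 := rfl

end Vale.Agent.P083
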