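import Vale.Agent.P083.Schmidt
import Vale.Agent.P083.Gen

/-! No almost invariant vectors of low rank. -/

namespace Vale.Agent.P083
open Finset
open scoped InnerProductSpace ComplexConjugate

lemma Rel.twist {R : Type*} [Ring R] [StarRing R] [Algebra ℂ R] [StarModule ℂ R] {u : Fin 5 → R}
    (h : Rel u) {E : R} (h1 : star E = E) (h2 : E * E = E) (h3 : ∀ s, u s * E = E)
    (h4 : ∀ s, E * u s = E) : Rel fun s => u s + (ch 1 - 1) • E := by
  have m : ∀ {p q : R} (a b : F), E * q = E → p * E = E →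
      (p + (ch a - 1) • E) * (q + (ch b - 1) • E) = p * q + (ch (a + b) - 1) • E := by
    intro p q a b hq hp
    simp only [mul_add, add_mul, mul_smul_comm, smul_mul_assoc, hq, hp, h2, ch_add]
    module
  have st : ∀ (p : R) (a : F), star (p + (ch a - 1) • E) = star p + (ch (-a) - 1) • E := by
    intro p a
    rw [star_add, star_smul, h1, star_sub, star_one, ← conj_ch]
    rfl
  have h5 : ∀ s, star (u s) * E = E := fun s => by rw [← h1, ← star_mul, h4]
  have h6 : ∀ s, E * star (u s) = E := fun s => by rw [← h1, ← star_mul, h3]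
  have h7 : ∀ s t, (u s + (ch 1 - 1) • E) * (u t + (ch 1 - 1) • E) * star (u s + (ch 1 - 1) • E) *
      star (u t + (ch 1 - 1) • E) = u s * u t * star (u s) * star (u t) := fun s t => by
    rw [st, st, m _ _ (h4 t) (h3 s), m _ _ (h6 s) (by rw [mul_assoc, h3, h3]),
      m _ _ (h6 t) (by rw [mul_assoc, mul_assoc, h5, h3, h3])]
    simp [ch_zero]
  have h8 : ∀ s t, Commute (u s * u t * star (u s) * star (u t)) ((ch 1 - 1) • E) := fun s t => by
    refine Commute.smul_right ?_ _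
    rw [Commute, SemiconjBy, ← mul_assoc, ← mul_assoc, ← mul_assoc, h4, h4, h6, h6]
    simp only [mul_assoc, h3, h5]
  refine ⟨fun s => ?_, fun s => ?_, fun s => ?_, fun s t => ?_⟩
  · rw [st, m _ _ (h4 s) (h5 s), h.l]; simp [ch_zero]
  · rw [st, m _ _ (h6 s) (h3 s), h.r]; simp [ch_zero]
  · have : ∀ k : ℕ, (u s + (ch 1 - 1) • E) ^ k = u s ^ k + (ch k - 1) • E ∧ u s ^ k * E = E := by
      intro k
      induction k with
      | zero => simp [ch_zero]
      | succ k ih =>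
        rw [pow_succ, ih.1, m _ _ (h4 s) ih.2, pow_succ, Nat.cast_succ, mul_assoc, h3, ih.2]
        exact ⟨rfl, rfl⟩
    rw [(this 29).1, h.p, show ((29 : ℕ) : F) = 0 from rfl, ch_zero, sub_self, zero_smul, add_zero]
  · rw [h7]
    exact ⟨(h.c s t).1.add_right (h8 s t), (h.c s t).2.add_right (h8 s t)⟩

lemma low_abs {K : Type} [NormedAddCommGroup K] [InnerProductSpace ℂ K] [FiniteDimensional ℂ K]
    [CompleteSpace K] {W : Fin 5 → K →L[ℂ] K} (hW : Rel W) {o : K} (ho : ∀ s, W s o = o)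
    (o0 : o ≠ 0) (irr : ∀ ρ, (∀ s, W s ρ = ρ) → ρ ∈ ℂ ∙ o) {ρ : K}
    (h1 : ∀ s, ‖W s ρ - ρ‖ ^ 2 ≤ 4 / 10 ^ 7 * ‖ρ‖ ^ 2)
    (h2 : 2 * ‖⟪o, ρ⟫_ℂ‖ ^ 2 ≤ ‖o‖ ^ 2 * ‖ρ‖ ^ 2) : ρ = 0 := by
  obtain ⟨E, hE⟩ : ∃ E, E = (ℂ ∙ o).starProjection := ⟨_, rfl⟩
  have e0 : IsStarProjection E := hE ▸ isStarProjection_starProjection
  have e1 : ∀ v, E v = (⟪o, v⟫_ℂ / ((‖o‖ ^ 2 : ℝ) : ℂ)) • o := fun v => by
    rw [hE]; exact Submodule.starProjection_singleton ℂ v
  have e2 : ∀ x : K →L[ℂ] K, x o = o → x * E = E := fun x hx => by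
    ext v
    rw [ContinuousLinearMap.mul_apply, e1, map_smul, hx]
  have e3 : ∀ s, E * W s = E := fun s => by
    have := congrArg star (e2 (star (W s)) (by
      conv_lhs => rw [← ho s, ← ContinuousLinearMap.mul_apply, hW.l]
      rfl))
    rwa [star_mul, star_star, e0.isSelfAdjoint.star_eq] at this
  have e4 : ∀ v, E (E v) = E v := fun v => by
    rw [← ContinuousLinearMap.mul_apply, e0.isIdempotentElem.eq]
  have hR := hW.twist e0.isSelfAdjoint.star_eq e0.isIdempotentElem.eq (fun s => e2 _ (ho s)) e3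
  have hn := norm_pos_iff.2 o0
  have h3 : ‖ρ‖ ^ 2 ≤ 2 * ‖ρ - E ρ‖ ^ 2 := by
    have h4 := Submodule.norm_sq_eq_add_norm_sq_starProjection ρ (ℂ ∙ o)
    rw [Submodule.starProjection_orthogonal_val, ← hE] at h4
    have h5 : ‖E ρ‖ ^ 2 * ‖o‖ ^ 2 = ‖⟪o, ρ⟫_ℂ‖ ^ 2 := by
      rw [e1, norm_smul, norm_div, Complex.norm_real, Real.norm_of_nonneg (sq_nonneg _)]
      field_simp
    have h6 : 2 * ‖E ρ‖ ^ 2 ≤ ‖ρ‖ ^ 2 :=
      le_of_mul_le_mul_right (by nlinarith) (pow_pos hn 2)
    linarith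
  by_contra h0
  have h0' := pow_pos (norm_pos_iff.2 h0) 2
  obtain ⟨T, T0, hT⟩ := gap_fin (fun s => by
    have := CStarRing.norm_star_mul_self (x := W s + (ch 1 - 1) • E)
    rw [hR.l s] at this
    nlinarith [show ‖(1 : K →L[ℂ] K)‖ ≤ 1 from ContinuousLinearMap.norm_id_le,
      norm_nonneg (W s + (ch 1 - 1) • E)]) hR
    ⟨ρ - E ρ, fun h => by rw [h, norm_zero] at h3; linarith, fun s => by
      have h4 : (W s + (ch 1 - 1) • E) (ρ - E ρ) - (ρ - E ρ) = W s ρ - ρ := by
        have := congrArg (fun x : K →L[ℂ] K => x ρ) (e2 _ (ho s))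
        simp only [ContinuousLinearMap.mul_apply] at this
        simp [e4, this]
      rw [h4, ← sq_le_sq₀ (norm_nonneg _) (by positivity)]
      nlinarith [h1 s]⟩
  have h4 : E T = 0 := by
    have := congrArg E (hT 0)
    rw [ContinuousLinearMap.add_apply, map_add, ← ContinuousLinearMap.mul_apply, e3,
      ContinuousLinearMap.smul_apply, map_smul, e4, add_eq_left, smul_eq_zero, sub_eq_zero] at this
    exact this.resolve_left fun h => one_ne_zero (ch_eq_one h)
  have h5 := irr T fun s => by simpa [h4] using hT s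
  rw [← Submodule.starProjection_eq_self_iff, ← hE, h4] at h5
  exact T0 h5.symm

variable {M : ℕ}

lemma irr {ρ : Yl M × Yl M → ℂ} (h : ∀ s y y', ρ ((gen M s).σ y, (gen M s).σ y') =
    ch ((gen M s).c y' - (gen M s).c y) * ρ (y, y')) (y y' : Yl M) :
    ρ (y, y') = if y = y' then ρ (0, 0) else 0 := by
  have hr : ∀ m : Fin M, ∃ s : Fin 5, m.val % 3 = s.val ∧ s.val < 3 := fun m =>
    ⟨⟨m % 3, by omega⟩, rfl, Nat.mod_lt _ (by norm_num)⟩
  have h1 : ∀ m y y', ρ (y, y') ≠ 0 → y m = y' m := by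
    intro m
    induction m using Fin.reverseInduction with
    | last =>
      intro y y' h0
      have h2 : ∀ y : Yl M, (gen M 4).σ y = y := fun y => funext fun i => by
        refine Fin.cases (by simp [gen_zero]) (fun i => ?_) i
        rw [gen_succ, if_neg (by change ¬ _ = 4; omega), add_zero]
      have h3 := h 4 y y'
      rw [h2, h2, right_eq_mul₀ h0] at h3
      exact (sub_eq_zero.1 (ch_eq_one h3)).symm
    | cast m ih =>
      intro y y' h0
      obtain ⟨s, hs, hs'⟩ := hr m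
      have h2 := ih ((gen M s).σ y) ((gen M s).σ y') (by
        rw [h]
        exact mul_ne_zero (norm_ne_zero_iff.1 (by simp [norm_ch])) h0)
      rw [gen_succ, gen_succ, if_pos hs, if_pos hs, ih y y' h0] at h2
      exact add_left_cancel h2
  have h2 : ∀ s y, ρ ((gen M s).σ y, (gen M s).σ y) = ρ (y, y) := fun s y => by
    rw [h, sub_self, ch_zero, one_mul]
  have h3 : ∀ m y, ρ (y + Pi.single m 1, y + Pi.single m 1) = ρ (y, y) := by
    intro m
    induction m using Fin.induction with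
    | zero =>
      intro y
      have : (gen M 3).σ y = y + Pi.single 0 1 := funext fun i => by
        refine Fin.cases (by simp [gen_zero]) (fun i => ?_) i
        rw [gen_succ, if_neg (by change ¬ _ = 3; omega)]
        simp
      rw [← this, h2]
    | succ m ih =>
      intro z
      obtain ⟨s, hs, hs'⟩ := hr m
      obtain ⟨y, rfl⟩ := (gen M s).σ.surjective z
      have : (gen M s).σ (y + Pi.single m.castSucc 1) =
          (gen M s).σ y + Pi.single m.succ 1 + Pi.single m.castSucc 1 := funext fun i => by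
        refine Fin.cases (by simp [gen_zero, add_right_comm]) (fun i => ?_) i
        simp only [gen_succ, Pi.add_apply, Pi.single_apply, Fin.castSucc_inj, Fin.succ_inj]
        by_cases hi : i = m
        · simp [hi, hs]; ring
        · simp [hi]; ring
      rw [← ih, ← this, h2, ih, h2]
  have h4 : ∀ z y, ρ (y + z, y + z) = ρ (y, y) := by
    intro z
    induction z using Pi.single_induction with
    | zero => simp
    | add a b ha hb => intro y; rw [← add_assoc, hb, ha]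
    | single i a =>
      obtain ⟨k, rfl⟩ := ZMod.natCast_zmod_surjective a
      induction k with
      | zero => simp
      | succ k ih => intro y; rw [Nat.cast_succ, Pi.single_add, ← add_assoc, h3, ih]
  split_ifs with hy
  · rw [← hy, ← h4 y 0, zero_add]
  · by_contra h0
    exact hy (funext fun m => h1 m y y' h0)

lemma rel_amp {Y : Type} [Fintype Y] {g : Fin 5 → PP Y} (h : GRel g) :
    Rel fun s => amp (1 : ℂ →L[ℂ] ℂ) (g s) := rel_of fun s t k => by
  have h1 : Rel fun _ : Fin 5 => (1 : ℂ →L[ℂ] ℂ) :=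
    ⟨by simp, by simp, by simp, fun _ _ => ⟨Commute.one_right _, Commute.one_right _⟩⟩
  have := rel0_amp (V := fun _ => (1 : ℂ →L[ℂ] ℂ)) h s t k
  rwa [h1.rel0, norm_zero, norm_le_zero_iff] at this

lemma norm_amp_le {Y : Type} [Fintype Y] {H : Type*} [NormedAddCommGroup H]
    [InnerProductSpace ℂ H] (g : PP Y) (v : L2 Y H) : ‖amp 1 g v‖ ≤ ‖v‖ := by
  have h1 : ‖(1 : H →L[ℂ] H)‖ ≤ 1 := ContinuousLinearMap.norm_id_le
  have := (amp (1 : H →L[ℂ] H) g).le_of_opNorm_le ((norm_amp 1 g).trans h1) v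
  rwa [one_mul] at this

lemma low0 {Y : Type} [Fintype Y] [DecidableEq Y] {g : Fin 5 → PP Y} (hg : GRel g) (z : Y)
    (irr : ∀ ρ : Y × Y → ℂ, (∀ s y y', ρ ((g s).σ y, (g s).σ y') =
      ch ((g s).c y' - (g s).c y) * ρ (y, y')) → ∀ y y', ρ (y, y') = if y = y' then ρ (z, z) else 0)
    {H : Type*} [NormedAddCommGroup H] [InnerProductSpace ℂ H] [CompleteSpace H]
    {x : Fin 5 → H →L[ℂ] H} (hx : ∀ s, ‖x s‖ ≤ 1) {L : Submodule ℂ H} [FiniteDimensional ℂ L]
    (hM : 2 * Module.finrank ℂ L ≤ Fintype.card Y) {τ : L2 Y H} (hL : ∀ y, τ y ∈ L)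
    (h : ∀ s, ‖amp (x s) (g s) τ - τ‖ ≤ 1 / 10 ^ 7 * ‖τ‖) : τ = 0 := by
  obtain ⟨ρ, h1, h2, h3⟩ := schmidt τ hL
  obtain ⟨o, ho⟩ : ∃ o : L2 (Y × Y) ℂ, ∀ y y', o (y, y') = if y = y' then 1 else 0 :=
    ⟨WithLp.toLp 2 fun p => if p.1 = p.2 then 1 else 0, fun _ _ => rfl⟩
  have hR := rel_amp (hg.map dbl)
  have h4 : ∀ s (v : L2 (Y × Y) ℂ) y y', amp 1 (dbl (g s)) v
      ((g s).σ y, (g s).σ y') = ch ((g s).c y' - (g s).c y) * v (y, y') :=
    fun s v y y' => amp_apply 1 (dbl (g s)) v (y, y')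
  have h5 : ρ = 0 := by
    refine low_abs hR (o := o) (fun s => ?_) (fun h0 => ?_) (fun v hv => ?_) (fun s => ?_) ?_
    · ext ⟨y, y'⟩
      obtain ⟨y, rfl⟩ := (g s).σ.surjective y
      obtain ⟨y', rfl⟩ := (g s).σ.surjective y'
      rw [h4, ho, ho]
      by_cases hy : y = y' <;> simp [hy, ch_zero]
    · simpa [h0] using ho z z
    · refine Submodule.mem_span_singleton.2 ⟨v (z, z), ?_⟩
      ext ⟨y, y'⟩
      rw [irr v (fun s y y' => by rw [← h4, hv]) y y', PiLp.smul_apply, ho]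
      simp
    · have h5 := h3 _ (hx s) (g s)
      have h6 := re_sub_le τ (amp (x s) (g s) τ)
      have h7 := mul_le_mul_of_nonneg_left (h s) (norm_nonneg τ)
      have h8 := norm_sub_sq_le (norm_amp_le (dbl (g s)) ρ)
      linarith
    · have h5 : ⟪o, ρ⟫_ℂ = ∑ y, ρ (y, y) := by
        simp [PiLp.inner_apply, Fintype.sum_prod_type, ho]
      have h6 : ‖o‖ ^ 2 = Fintype.card Y := by
        rw [PiLp.norm_sq_eq_of_L2, Fintype.sum_prod_type]
        simp [ho, apply_ite]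
      have h7 : ((2 * Module.finrank ℂ L : ℕ) : ℝ) ≤ Fintype.card Y := by exact_mod_cast hM
      rw [h5, h6, h1]
      push_cast at h7
      nlinarith [sq_nonneg ‖τ‖]
  rw [h5, norm_zero] at h1
  simpa using h1.symm

theorem low {H : Type*} [NormedAddCommGroup H] [InnerProductSpace ℂ H] [CompleteSpace H]
    {x : Fin 5 → H →L[ℂ] H} (hx : ∀ s, ‖x s‖ ≤ 1) {L : Submodule ℂ H} [FiniteDimensional ℂ L]
    (hM : 2 * Module.finrank ℂ L ≤ M) {τ : L2 (Yl M) H} (hL : ∀ y, τ y ∈ L)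
    (h : ∀ s, ‖amp (x s) (gen M s) τ - τ‖ ≤ 1 / 10 ^ 7 * ‖τ‖) : τ = 0 :=
  low0 (grel M) 0 (fun _ => irr) hx (by
    rw [Fintype.card_fun, ZMod.card, Fintype.card_fin]
    exact hM.trans ((Nat.le_succ M).trans (Nat.lt_pow_self (by norm_num)).le)) hL h

end Vale.Agent.P083
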