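import Vale.Agent.P083.Cuntz

/-! An exact solution of the relations. -/

namespace Vale.Agent.P083
open Filter Topology TopologicalSpace
open scoped InnerProductSpace ENNReal

section
variable {X : Type} {H : Type} [NormedAddCommGroup H] [InnerProductSpace ℂ H] [CompleteSpace H]
  (dl : HilbertBasis X ℂ H)

omit [CompleteSpace H] in
lemma orth_op {φ : X → X} (hφ : Function.Injective φ) (c : X → F) :
    Orthonormal ℂ fun x => ch (-c x) • dl (φ x) :=
  ⟨fun x => by rw [norm_smul, norm_ch, P070.norm_dl, one_mul], fun x y h => by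
    simp only [inner_smul_left, inner_smul_right]
    rw [dl.orthonormal.2 (hφ.ne h), mul_zero, mul_zero]⟩

/-- The isometry given by an injection and a phase. -/
noncomputable def opI {φ : X → X} (hφ : Function.Injective φ) (c : X → F) : H →ₗᵢ[ℂ] H :=
  (orth_op dl hφ c).orthogonalFamily.linearIsometry.comp dl.repr.toLinearIsometry

/-- The same as an operator. -/
noncomputable def op {φ : X → X} (hφ : Function.Injective φ) (c : X → F) : H →L[ℂ] H :=
  (opI dl hφ c).toContinuousLinearMap

lemma op_dl {φ : X → X} (hφ : Function.Injective φ) (c : X → F) (x : X) :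
    op dl hφ c (dl x) = ch (-c x) • dl (φ x) := by
  classical
  change (orth_op dl hφ c).orthogonalFamily.linearIsometry (dl.repr (dl x)) = _
  rw [dl.repr_self, OrthogonalFamily.linearIsometry_apply_single]
  simp

lemma star_op {φ : X → X} (hφ : Function.Injective φ) (c : X → F) :
    star (op dl hφ c) * op dl hφ c = 1 := by
  ext v
  refine ext_inner_left ℂ fun w => ?_
  rw [ContinuousLinearMap.mul_apply, ContinuousLinearMap.star_eq_adjoint,
    ContinuousLinearMap.adjoint_inner_right]
  exact (opI dl hφ c).inner_map_map w v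

/-- The unitary representation. -/
noncomputable def U : PP X →* H →L[ℂ] H where
  toFun g := op dl g.σ.injective g.c
  map_one' := P070.ext_dl dl fun x => by simp [op_dl, ch_zero]
  map_mul' g h := P070.ext_dl dl fun x => by
    simp [op_dl, ch_add, smul_smul]

lemma star_U (g : PP X) : star (U dl g) = U dl g⁻¹ := by
  have h : star (U dl g) * U dl g = 1 := star_op dl _ _
  rw [← mul_one (star _), ← map_one (U dl), ← mul_inv_cancel g, map_mul, ← mul_assoc, h, one_mul]

lemma rel_U {g : Fin 5 → PP X} (h : GRel g) : Rel fun s => U dl (g s) where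
  l s := by rw [star_U, ← map_mul, inv_mul_cancel, map_one]
  r s := by rw [star_U, ← map_mul, mul_inv_cancel, map_one]
  p s := by rw [← map_pow, h.p, map_one]
  c s t := by
    simpa only [star_U, map_mul] using And.intro ((h.c s t).1.map (U dl)) ((h.c s t).2.map (U dl))

end

/-- The index set. -/
abbrev Om := (Σ M, Yl M) × ℕ

/-- Acting on all levels. -/
def lift : (∀ M, PP (Yl M)) →* PP Om where
  toFun g := ⟨(Equiv.sigmaCongrRight fun M => (g M).σ).prodCongr (Equiv.refl ℕ),
    fun x => (g x.1.1).c x.1.2⟩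
  map_one' := PP.ext (Equiv.ext fun _ => rfl) rfl
  map_mul' _ _ := PP.ext (Equiv.ext fun _ => rfl) rfl

lemma grel_all : GRel fun s M => gen M s where
  p s := funext fun M => (grel M).p s
  c s t := ⟨funext fun M => ((grel M).c s t).1, funext fun M => ((grel M).c s t).2⟩

lemma inj_cons (j : F) : Function.Injective fun x : Om =>
    ((⟨x.1.1 + 1, Fin.cons j x.1.2⟩, x.2) : Om) := by
  rintro ⟨⟨M, y⟩, w⟩ ⟨⟨M', y'⟩, w'⟩ h
  simp only [Prod.mk.injEq, Sigma.mk.injEq, add_left_inj] at h
  obtain ⟨⟨rfl, h⟩, rfl⟩ := h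
  rw [(Fin.cons_inj.1 (eq_of_heq h)).2]

theorem exists_model : ∃ (E : Type) (_ : CStarAlgebra E) (V : Fin 5 → E) (S T : F → E),
    Nontrivial E ∧ (∀ s t k, rel0 V s t k = 0) ∧ ∀ s j k, rel1 V S T s j k = 0 := by
  obtain ⟨H, _, _, _, ⟨dl⟩⟩ : ∃ (H : Type) (_ : NormedAddCommGroup H) (_ : InnerProductSpace ℂ H)
      (_ : CompleteSpace H), Nonempty (HilbertBasis Om ℂ H) :=
    ⟨lp (fun _ : Om => ℂ) 2, inferInstance, inferInstance, inferInstance, ⟨default⟩⟩
  obtain ⟨e, he⟩ := exists_injective_nat Om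
  have hT : ∀ j : F, Function.Injective fun x : Om => ((⟨0, fun _ => j⟩, e x) : Om) :=
    fun j x y h => he (congrArg Prod.snd h)
  have : Nontrivial H := nontrivial_of_ne (dl (⟨0, 0⟩, 0)) 0 (dl.orthonormal.ne_zero _)
  have hU : ∀ g M y w, U dl (lift g) (dl (⟨M, y⟩, w)) =
      ch (-(g M).c y) • dl (⟨M, (g M).σ y⟩, w) := fun g M y w => op_dl dl _ _ _
  refine ⟨H →L[ℂ] H, inferInstance, fun s => U dl (lift fun M => gen M s),
    fun j => op dl (inj_cons j) 0, fun j => op dl (hT j) 0, inferInstance,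
    (rel_U dl (grel_all.map lift)).rel0, fun s j k => ?_⟩
  fin_cases k
  · exact sub_eq_zero.2 (star_op dl _ _)
  · exact sub_eq_zero.2 (star_op dl _ _)
  · refine sub_eq_zero.2 (P070.ext_dl dl fun ⟨⟨M, y⟩, w⟩ => ?_)
    have h1 : wd (fun s M => gen M s) s j M = wd (gen M) s j :=
      map_wd (Pi.evalMonoidHom (fun M => PP (Yl M)) M) (fun s M => gen M s) s j
    rw [← map_wd (U dl) fun s => lift fun M => gen M s, ← map_wd lift]
    simp only [ContinuousLinearMap.mul_apply, op_dl, hU, map_smul, h1, gen_cons, Pi.zero_apply,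
      neg_zero, ch_zero, one_smul]
  · refine sub_eq_zero.2 (P070.ext_dl dl fun x => ?_)
    simp only [ContinuousLinearMap.mul_apply, ContinuousLinearMap.smul_apply, op_dl, hU,
      Pi.zero_apply, neg_zero, ch_zero, one_smul, gen_base, gen_c]

lemma separable_adjoin {E : Type*} [CStarAlgebra E] {G : Set E} (h1 : G.Countable) :
    SeparableSpace (StarAlgebra.adjoin ℂ G).topologicalClosure := by
  have h2 : (G ∪ star G).Countable := h1.union (by rw [← Set.image_star]; exact h1.image _)
  have := h2.to_subtype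
  have h3 : (Submonoid.closure (G ∪ star G) : Set E).Countable :=
    (Set.countable_range fun l : List (G ∪ star G : Set E) => (l.map Subtype.val).prod).mono
      fun z hz => by
        obtain ⟨l, hl, rfl⟩ := Submonoid.exists_list_of_mem_closure hz
        exact ⟨l.attachWith _ hl, by simp only [List.attachWith_map_subtype_val]⟩
  have h4 := (h3.isSeparable.span (R := ℂ)).closure
  rw [← Algebra.adjoin_eq_span, ← StarAlgebra.adjoin_toSubalgebra] at h4
  exact h4.separableSpace

theorem exists_sep_model : ∃ (A : Type) (_ : CStarAlgebra A) (V : Fin 5 → A) (S T : F → A),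
    Nontrivial A ∧ SeparableSpace A ∧ (∀ s t k, rel0 V s t k = 0) ∧
      ∀ s j k, rel1 V S T s j k = 0 := by
  obtain ⟨E, _, V, S, T, _, h0, h1⟩ := exists_model
  obtain ⟨G, hG⟩ : ∃ G : Set E, G = Set.range V ∪ Set.range S ∪ Set.range T := ⟨_, rfl⟩
  have hc : G.Countable := by
    rw [hG]
    exact ((Set.countable_range V).union (Set.countable_range S)).union (Set.countable_range T)
  have hm : ∀ x ∈ G, x ∈ (StarAlgebra.adjoin ℂ G).topologicalClosure := fun x hx =>
    StarSubalgebra.le_topologicalClosure _ (StarAlgebra.subset_adjoin ℂ G hx)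
  have := (StarAlgebra.adjoin ℂ G).isClosed_topologicalClosure
  refine ⟨(StarAlgebra.adjoin ℂ G).topologicalClosure, inferInstance,
    fun s => ⟨V s, hm _ (by simp [hG])⟩, fun s => ⟨S s, hm _ (by simp [hG])⟩,
    fun s => ⟨T s, hm _ (by simp [hG])⟩, inferInstance, separable_adjoin hc,
    fun s t k => Subtype.ext ?_, fun s j k => Subtype.ext ?_⟩
  · refine (map_rel0 (StarAlgebra.adjoin ℂ G).topologicalClosure.subtype _ s t k).trans ?_
    exact h0 s t k
  · refine (map_rel1 (StarAlgebra.adjoin ℂ G).topologicalClosure.subtype _ _ _ s j k).trans ?_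
    exact h1 s j k

universe v

theorem main : ∃ (A : Type) (_ : CStarAlgebra A), Nontrivial A ∧ SeparableSpace A ∧
    ∀ (B : Type v) [CStarAlgebra B] [Nontrivial B] (s t : B),
    star s * s = 1 → star t * t = 1 → s * star s + t * star t = 1 →
    (StarAlgebra.adjoin ℂ {s, t}).topologicalClosure = ⊤ → ∀ ω : Ultrafilter ℕ,
    IsEmpty (A →⋆ₐ[ℂ] Ultraprod (fun _ => B) ω) := by
  obtain ⟨A, _, V, S, T, _, _, h0, h1⟩ := exists_sep_model
  refine ⟨A, inferInstance, inferInstance, inferInstance,
    fun B _ _ s t hs ht hst hg ω => ⟨fun φ => ?_⟩⟩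
  obtain ⟨ε, hε, h⟩ := no_approx.{v}
  have hl : ∀ a : A, star a * a - 1 = 0 → ∃ x, mkU (fun _ => B) ω x = φ a ∧
      ∀ n, ‖ev (fun _ => B) n x‖ ≤ 1 := fun a ha =>
    exists_lift (by rw [← map_star, ← map_mul, sub_eq_zero.1 ha, map_one])
  choose V' hV hV' using fun s => hl (V s) (h0 s s 0)
  choose S' hS hS' using fun j => hl (S j) (h1 0 j 0)
  choose T' hT hT' using fun j => hl (T j) (h1 0 j 1)
  have e0 : ∀ s t k, ∀ᶠ n in ω, ‖ev (fun _ => B) n (rel0 V' s t k)‖ ≤ ε := fun s t k =>
    (mkU_eq_zero.1 (by simp only [map_rel0, hV]; rw [← map_rel0, h0, map_zero])).eventually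
      (ge_mem_nhds hε)
  have e1 : ∀ s j k, ∀ᶠ n in ω, ‖ev (fun _ => B) n (rel1 V' S' T' s j k)‖ ≤ ε := fun s j k =>
    (mkU_eq_zero.1 (by simp only [map_rel1, hV, hS, hT]; rw [← map_rel1, h1, map_zero])).eventually
      (ge_mem_nhds hε)
  simp only [← eventually_all, map_rel0, map_rel1] at e0 e1
  obtain ⟨n, hn0, hn1⟩ := (e0.and e1).exists
  exact h B s t hs ht hst hg _ _ _ (fun s => hV' s n) (fun j => hS' j n) hn0 hn1

end Vale.Agent.P083
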