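import Mathlib

/-! A sum of squares certificate for a spectral gap. -/

namespace Vale.Agent.P083
open Finset

variable {R : Type*} [Ring R] [StarRing R] [Algebra ℂ R] [StarModule ℂ R]

/-- Sums of hermitian squares. -/
def Pos (x : R) : Prop := x ∈ AddSubmonoid.closure (Set.range fun z : R => star z * z)

omit [Algebra ℂ R] [StarModule ℂ R] in
lemma Pos.sq (z : R) : Pos (star z * z) := AddSubmonoid.subset_closure ⟨z, rfl⟩

omit [Algebra ℂ R] [StarModule ℂ R] in
lemma Pos.add {x y : R} (hx : Pos x) (hy : Pos y) : Pos (x + y) := add_mem hx hy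

omit [Algebra ℂ R] [StarModule ℂ R] in
lemma Pos.proj {q : R} (h1 : star q = q) (h2 : q * q = q) : Pos q := by
  have := Pos.sq q
  rwa [h1, h2] at this

lemma Pos.smul {x : R} (hx : Pos x) {c : ℂ} (r : ℝ) (hr : 0 ≤ r) (hc : c = r) : Pos (c • x) := by
  subst hc
  induction hx using AddSubmonoid.closure_induction with
  | mem x hx =>
    obtain ⟨z, rfl⟩ := hx
    have := Pos.sq (((√r : ℝ) : ℂ) • z)
    rwa [star_smul, smul_mul_smul_comm, Complex.star_def, Complex.conj_ofReal,
      ← Complex.ofReal_mul, Real.mul_self_sqrt hr] at this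
  | zero => rw [smul_zero]; exact zero_mem _
  | add x y _ _ hx hy => rw [smul_add]; exact hx.add hy

lemma pos_pair {F P Q : R} (sF : star F = F) (sP : star P = P) (sQ : star Q = Q)
    (FF : F * F = F) (PP : P * P = P) (QQ : Q * Q = Q) (FP : P * F = F * P) (FQ : Q * F = F * Q)
    (h1 : Q * (F * P) = F * P * Q) (h2 : (1 - F) * (P * Q * P) = (1 / 29 : ℂ) • ((1 - F) * P)) :
    Pos ((1 - P) * (1 - Q) + (1 - Q) * (1 - P) + (1 / 5 : ℂ) • ((1 - P) + (1 - Q))) := by
  obtain ⟨G, hG⟩ : ∃ G, G = 1 - F := ⟨_, rfl⟩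
  have sG : star G = G := by simp [hG, sF]
  have GG : G * G = G := by simp [hG, mul_sub, sub_mul, FF]
  have GP : P * G = G * P := by simp [hG, mul_sub, sub_mul, FP]
  have GQ : Q * G = G * Q := by simp [hG, mul_sub, sub_mul, FQ]
  rw [← hG] at h2
  have r : ∀ {a b c : R}, a * b = c → ∀ x, a * (b * x) = c * x := fun h x => by
    rw [← mul_assoc, h]
  have h3 : F * (Q * P) = F * (P * Q) := by rw [← mul_assoc, ← FQ, mul_assoc, h1, mul_assoc]
  have h3' : ∀ x, F * (Q * (P * x)) = F * (P * (Q * x)) := fun x => by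
    rw [← mul_assoc Q, ← mul_assoc P, ← mul_assoc F, h3, mul_assoc]
  have h2' : G * (P * (Q * P)) = (1 / 29 : ℂ) • (G * P) := by rw [← h2, mul_assoc]
  have e1 : star (F * (1 - P) * (1 - Q)) * (F * (1 - P) * (1 - Q)) =
      F - F * P - F * Q + F * (P * Q) := by
    simp only [star_mul, star_sub, star_one, sF, sP, sQ, mul_sub, sub_mul, mul_one, one_mul,
      mul_assoc, FF, PP, QQ, FP, FQ, r FF, r PP, r QQ, r FP, r FQ, h3, h3']
    abel
  have e2 : star (G - (5 / 6 : ℂ) • (G * P + G * Q)) * (G - (5 / 6 : ℂ) • (G * P + G * Q)) =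
      G - (35 / 36 : ℂ) • (G * P + G * Q) + (25 / 36 : ℂ) • (G * (P * Q) + G * (Q * P)) := by
    have : star (5 / 6 : ℂ) = 5 / 6 := by simp
    simp only [star_mul, star_sub, star_add, star_smul, this, sG, sP, sQ, mul_sub, sub_mul, mul_add,
      add_mul, mul_smul_comm, smul_mul_assoc, mul_assoc, GG, PP, QQ, GP, GQ, r GG, r PP, r QQ,
      r GP, r GQ]
    module
  have e3 : star (G * Q - (5 : ℂ) • (G * (Q * P))) * (G * Q - (5 : ℂ) • (G * (Q * P))) =
      G * Q - (5 : ℂ) • (G * (P * Q) + G * (Q * P)) + (25 / 29 : ℂ) • (G * P) := by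
    have : star (5 : ℂ) = 5 := by simp
    simp only [star_mul, star_sub, star_smul, this, sG, sP, sQ, mul_sub, sub_mul,
      mul_smul_comm, smul_mul_assoc, mul_assoc, GG, QQ, GP, GQ, r GG, r QQ, r GP, r GQ, h2']
    module
  have p1 := (Pos.sq (F * (1 - P) * (1 - Q))).smul (c := 2) 2 (by norm_num) (by norm_num)
  have p2 := (Pos.sq (G - (5 / 6 : ℂ) • (G * P + G * Q))).smul (c := 12 / 5) (12 / 5)
    (by norm_num) (by norm_num)
  have p3 := (Pos.sq (G * Q - (5 : ℂ) • (G * (Q * P)))).smul (c := 2 / 15) (2 / 15)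
    (by norm_num) (by norm_num)
  have p4 := (Pos.proj (q := G * P) (by rw [star_mul, sG, sP, GP])
    (by simp only [mul_assoc, r GP, r GG, PP])).smul (c := 8 / 435) (8 / 435)
    (by norm_num) (by norm_num)
  have p5 := (Pos.proj (q := F - F * P) (by rw [star_sub, star_mul, sF, sP, FP])
    (by simp only [mul_sub, sub_mul, mul_assoc, r FP, r FF, PP, FF, FP]; abel)).smul
    (c := 1 / 5) (1 / 5) (by norm_num) (by norm_num)
  have p6 := (Pos.proj (q := F - F * Q) (by rw [star_sub, star_mul, sF, sQ, FQ])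
    (by simp only [mul_sub, sub_mul, mul_assoc, r FQ, r FF, QQ, FF, FQ]; abel)).smul
    (c := 1 / 5) (1 / 5) (by norm_num) (by norm_num)
  rw [e1] at p1
  rw [e2] at p2
  rw [e3] at p3
  have := ((((p1.add p2).add p3).add p4).add p5).add p6
  convert this using 1
  simp only [hG, mul_sub, sub_mul, mul_one, one_mul, h3]
  module

/-- The average of the powers. -/
noncomputable def av (x : R) : R := (1 / 29 : ℂ) • ∑ k ∈ range 29, x ^ k

omit [StarRing R] [StarModule ℂ R] in
lemma mul_av {x : R} (h : x ^ 29 = 1) : x * av x = av x := by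
  rw [av, mul_smul_comm, mul_sum]
  congr 1
  have := sum_range_succ' (fun k => x ^ k) 29
  rw [sum_range_succ, h, pow_zero] at this
  simp only [← pow_succ']
  exact (add_right_cancel this).symm

omit [StarRing R] [StarModule ℂ R] in
lemma comm_av {x y : R} (h : Commute x y) : Commute (av x) y :=
  (Commute.sum_left _ _ _ fun k _ => h.pow_left k).smul_left _

omit [StarRing R] [StarModule ℂ R] in
lemma av_mul_of {x y : R} (h : x * y = y) : av x * y = y := by
  have : ∀ k, x ^ k * y = y := fun k => by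
    induction k with
    | zero => simp
    | succ k ih => rw [pow_succ, mul_assoc, h, ih]
  rw [av, smul_mul_assoc, sum_mul]
  simp only [this, sum_const, card_range]
  rw [← Nat.cast_smul_eq_nsmul ℂ, smul_smul]
  norm_num

lemma star_av {x : R} (h1 : star x * x = 1) (h : x ^ 29 = 1) : star (av x) = av x := by
  have h2 : star x * av x = av x := by
    conv_lhs => rw [← mul_av h, ← mul_assoc, h1, one_mul]
  have h3 : star (av x) = av (star x) := by simp [av, star_sum]
  have h4 : star (av x) * av x = av x := by rw [h3, av_mul_of h2]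
  rw [← h4, star_mul, star_star]

/-- Unitaries of order 29, any two of which generate a nilpotent group of class two. -/
structure Rel {S : Type*} (u : S → R) : Prop where
  l : ∀ s, star (u s) * u s = 1
  r : ∀ s, u s * star (u s) = 1
  p : ∀ s, u s ^ 29 = 1
  c : ∀ s t, Commute (u s * u t * star (u s) * star (u t)) (u s) ∧
    Commute (u s * u t * star (u s) * star (u t)) (u t)

lemma pos_heis {x y : R} (xl : star x * x = 1) (xr : x * star x = 1) (yl : star y * y = 1)
    (yr : y * star y = 1) (xp : x ^ 29 = 1) (yp : y ^ 29 = 1)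
    (cx : Commute (x * y * star x * star y) x) (cy : Commute (x * y * star x * star y) y) :
    Pos ((1 - av x) * (1 - av y) + (1 - av y) * (1 - av x) +
      (1 / 5 : ℂ) • ((1 - av x) + (1 - av y))) := by
  obtain ⟨c, hc⟩ : ∃ c, c = x * y * star x * star y := ⟨_, rfl⟩
  rw [← hc] at cx cy
  have h1 : x * y = c * y * x := by
    rw [hc, mul_assoc _ (star y), yl, mul_one, mul_assoc, xl, mul_one]
  have cl : star c * c = 1 := by
    simp only [hc, star_mul, star_star, mul_assoc]
    rw [← mul_assoc (star x) x, xl, one_mul, ← mul_assoc (star y) y, yl, one_mul,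
      ← mul_assoc x, xr, one_mul, yr]
  have h2 : ∀ k, x * y ^ k = c ^ k * y ^ k * x := fun k => by
    induction k with
    | zero => simp
    | succ k ih =>
      rw [pow_succ, ← mul_assoc, ih, mul_assoc, h1, pow_succ, mul_assoc c, ← mul_assoc,
        mul_assoc (c ^ k), ← (cy.pow_right k).eq]
      simp only [mul_assoc]
  have cp : c ^ 29 = 1 := by
    have := h2 29
    rw [yp, mul_one, mul_one] at this
    rw [← mul_one (c ^ 29), ← xr, ← mul_assoc, ← this]
  have xa : av x * x = av x := by rw [(comm_av (Commute.refl x)).eq, mul_av xp]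
  have ca : av c * c = av c := by rw [(comm_av (Commute.refl c)).eq, mul_av cp]
  have Fx := comm_av cx
  have Fy := comm_av cy
  have FP := (comm_av Fx.symm).eq
  have FQ := (comm_av Fy.symm).eq
  refine pos_pair (F := av c) (star_av cl cp) (star_av xl xp) (star_av yl yp)
    (av_mul_of (mul_av cp)) (av_mul_of (mul_av xp)) (av_mul_of (mul_av yp)) FP FQ ?_ ?_
  · have h3 : Commute x (av c * y) := by
      rw [Commute, SemiconjBy, ← mul_assoc, ← Fx.eq, mul_assoc, h1, ← mul_assoc, ← mul_assoc, ca]
    have h4 : Commute y (av c * av x) := by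
      rw [Commute, SemiconjBy, ← mul_assoc, ← Fy.eq, ← (comm_av h3).eq, ← mul_assoc, FP]
    exact (comm_av h4).eq
  · have h3 : ∀ k ∈ range 28, (1 - av c) * (av x * y ^ (k + 1) * av x) = 0 := by
      intro k hk
      have h4 : c ^ (k + 1) * (av x * y ^ (k + 1) * av x) = av x * y ^ (k + 1) * av x := by
        calc _ = av x * (c ^ (k + 1) * y ^ (k + 1) * x) * av x := by
              rw [← mul_assoc, ← mul_assoc, ← ((comm_av cx.symm).pow_right _).eq, mul_assoc _ _ (av x),
                ← mul_av xp]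
              simp only [mul_assoc, mul_av xp]
          _ = _ := by rw [← h2, ← mul_assoc, xa]
      obtain ⟨m, hm⟩ : ∃ m, (k + 1) * m % 29 = 1 := by
        have := mem_range.1 hk
        obtain ⟨m, -, hm⟩ := Nat.exists_mul_mod_eq_one_of_coprime (n := k + 1) (k := 29)
          ((Nat.coprime_of_lt_prime (by omega) (by omega) (by norm_num)).symm) (by norm_num)
        exact ⟨m, hm⟩
      have h5 : ∀ j, c ^ ((k + 1) * j) * (av x * y ^ (k + 1) * av x) =
          av x * y ^ (k + 1) * av x := fun j => by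
        induction j with
        | zero => simp
        | succ j ih => rw [mul_add, mul_one, pow_add, mul_assoc, h4, ih]
      have h6 := h5 m
      rw [pow_eq_pow_mod _ cp, hm, pow_one] at h6
      rw [sub_mul, one_mul, av_mul_of h6, sub_self]
    conv_lhs => rw [av.eq_1 y, mul_smul_comm, smul_mul_assoc, mul_smul_comm, mul_sum, sum_mul,
      mul_sum, sum_range_succ', sum_eq_zero h3, zero_add, pow_zero, mul_one,
      av_mul_of (mul_av xp)]

/-- The Laplacian. -/
noncomputable def lap {S : Type*} [Fintype S] (u : S → R) : R := ∑ s, (1 - av (u s))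

theorem Rel.pos {u : Fin 5 → R} (h : Rel u) : Pos (lap u * lap u - (1 / 5 : ℂ) • lap u) := by
  have k := fun s t => pos_heis (h.l s) (h.r s) (h.l t) (h.r t) (h.p s) (h.p t) (h.c s t).1
    (h.c s t).2
  have q : ∀ s, (1 - av (u s)) * (1 - av (u s)) = 1 - av (u s) := fun s => by
    rw [sub_mul, one_mul, mul_sub, mul_one, av_mul_of (mul_av (h.p s)), sub_self, sub_zero]
  have := ((((((((k 0 1).add (k 0 2)).add (k 0 3)).add (k 0 4)).add (k 1 2)).add (k 1 3)).add
    (k 1 4)).add ((k 2 3).add (k 2 4))).add (k 3 4)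
  convert this using 1
  simp only [lap, Fin.sum_univ_five]
  generalize hq : (fun s => 1 - av (u s)) = Q at q
  have e : ∀ s, 1 - av (u s) = Q s := fun s => congrFun hq s
  simp only [e] at q ⊢
  simp only [mul_add, add_mul, q]
  module

end Vale.Agent.P083
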