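import Vale.Agent.P083.Amp

/-! Schmidt decomposition. -/

namespace Vale.Agent.P083
open Finset
open scoped InnerProductSpace ComplexConjugate

variable {H : Type*} [NormedAddCommGroup H] [InnerProductSpace ℂ H]

lemma bessel {ι : Type} [Fintype ι] {h : ι → H} (orth : Pairwise fun k l => ⟪h k, h l⟫_ℂ = 0)
    (z : H) : ∑ k, ‖⟪((‖h k‖ : ℂ))⁻¹ • h k, z⟫_ℂ‖ ^ 2 ≤ ‖z‖ ^ 2 := by
  classical
  have h1 : Orthonormal ℂ fun k : {k // h k ≠ 0} => ((‖h k‖ : ℂ))⁻¹ • h k :=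
    ⟨fun k => norm_smul_inv_norm k.2, fun k l hkl => by
      simp only [inner_smul_left, inner_smul_right]
      rw [orth (Subtype.coe_ne_coe.2 hkl), mul_zero, mul_zero]⟩
  refine le_trans (le_of_eq ?_) (h1.sum_inner_products_le z (s := univ))
  rw [← sum_subtype (univ.filter fun k => h k ≠ 0) (by simp)
    fun k => ‖⟪((‖h k‖ : ℂ))⁻¹ • h k, z⟫_ℂ‖ ^ 2, sum_filter]
  refine sum_congr rfl fun k _ => ?_
  split_ifs with hk
  · rfl
  · simp [not_not.1 hk]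

lemma tr_bound {ι : Type} [Fintype ι] {h : ι → H} (orth : Pairwise fun k l => ⟪h k, h l⟫_ℂ = 0)
    {L : Submodule ℂ H} [FiniteDimensional ℂ L] (hL : ∀ k, h k ∈ L) :
    (∑ k, ‖h k‖) ^ 2 ≤ Module.finrank ℂ L * ∑ k, ‖h k‖ ^ 2 := by
  classical
  have h1 : LinearIndependent ℂ fun k : {k // h k ≠ 0} => (⟨h k, hL k⟩ : L) :=
    linearIndependent_of_ne_zero_of_inner_eq_zero (fun k hk => k.2 (congrArg Subtype.val hk))
      fun k l hkl => orth (Subtype.coe_ne_coe.2 hkl)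
  have h2 := h1.fintype_card_le_finrank
  rw [Fintype.card_subtype] at h2
  have h3 := sq_sum_le_card_mul_sum_sq (s := univ.filter fun k => h k ≠ 0) (f := fun k => ‖h k‖)
  rw [sum_filter_of_ne (fun k _ hk => by simpa using hk),
    sum_filter_of_ne (fun k _ hk => by simpa using hk)] at h3
  refine h3.trans ?_
  gcongr

variable [CompleteSpace H]

lemma amgm {ι : Type} [Fintype ι] {h : ι → H} (orth : Pairwise fun k l => ⟪h k, h l⟫_ℂ = 0)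
    {x : H →L[ℂ] H} (hx : ‖x‖ ≤ 1) (m : ι → ι → ℂ) :
    (∑ k, ∑ l, conj (m k l) * ⟪h k, x (h l)⟫_ℂ).re ≤
      (∑ k, ‖h k‖ ^ 2 + ∑ k, ∑ l, ‖h k‖ * ‖h l‖ * ‖m k l‖ ^ 2) / 2 := by
  obtain ⟨e, he⟩ : ∃ e : ι → H, ∀ k, e k = ((‖h k‖ : ℂ))⁻¹ • h k := ⟨_, fun _ => rfl⟩
  have h1 : ∀ k, h k = (‖h k‖ : ℂ) • e k := fun k => by
    by_cases hk : h k = 0
    · simp [hk]
    · rw [he, smul_smul, mul_inv_cancel₀ (by simpa using hk), one_smul]
  have h2 : ∀ k, ‖e k‖ ≤ 1 := fun k => by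
    by_cases hk : h k = 0
    · simp [he, hk]
    · rw [he]; exact (norm_smul_inv_norm (𝕜 := ℂ) hk).le
  have h3 : ∀ (x : H →L[ℂ] H), ‖x‖ ≤ 1 → ∀ l, ∑ k, ‖⟪e k, x (e l)⟫_ℂ‖ ^ 2 ≤ 1 := fun x hx l => by
    have := bessel orth (x (e l))
    simp only [← he] at this
    refine this.trans (pow_le_one₀ (norm_nonneg _) ?_)
    linarith [x.le_of_opNorm_le hx (e l), h2 l]
  have h4 : ∀ k, ∑ l, ‖⟪e k, x (e l)⟫_ℂ‖ ^ 2 ≤ 1 := fun k => by
    have := h3 (star x) (by rwa [norm_star]) k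
    simp only [ContinuousLinearMap.star_eq_adjoint, ContinuousLinearMap.adjoint_inner_right] at this
    simpa only [norm_inner_symm] using this
  have h5 : ∀ k l, (conj (m k l) * ⟪h k, x (h l)⟫_ℂ).re ≤ ‖h k‖ * ‖h l‖ * ‖m k l‖ ^ 2 / 2 +
      (‖h k‖ ^ 2 * ‖⟪e k, x (e l)⟫_ℂ‖ ^ 2 / 4 + ‖h l‖ ^ 2 * ‖⟪e k, x (e l)⟫_ℂ‖ ^ 2 / 4) := by
    intro k l
    refine (Complex.re_le_norm _).trans ?_
    have : ‖⟪h k, x (h l)⟫_ℂ‖ = ‖h k‖ * ‖h l‖ * ‖⟪e k, x (e l)⟫_ℂ‖ := by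
      conv_lhs => rw [h1 k, h1 l]
      simp [inner_smul_left, inner_smul_right, mul_assoc, mul_left_comm]
    rw [norm_mul, RCLike.norm_conj, this]
    generalize ‖⟪e k, x (e l)⟫_ℂ‖ = b
    nlinarith [mul_nonneg (mul_nonneg (norm_nonneg (h k)) (norm_nonneg (h l)))
      (sq_nonneg (‖m k l‖ - b)), mul_nonneg (sq_nonneg (‖h k‖ - ‖h l‖)) (sq_nonneg b)]
  have h6 : ∑ k, ∑ l, ‖h k‖ ^ 2 * ‖⟪e k, x (e l)⟫_ℂ‖ ^ 2 / 4 ≤ (∑ k, ‖h k‖ ^ 2) / 4 := by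
    rw [sum_div]
    refine sum_le_sum fun k _ => ?_
    rw [← sum_div, ← mul_sum]
    nlinarith [h4 k, sq_nonneg ‖h k‖]
  have h7 : ∑ k, ∑ l, ‖h l‖ ^ 2 * ‖⟪e k, x (e l)⟫_ℂ‖ ^ 2 / 4 ≤ (∑ k, ‖h k‖ ^ 2) / 4 := by
    rw [sum_div, sum_comm]
    refine sum_le_sum fun k _ => ?_
    rw [← sum_div, ← mul_sum]
    nlinarith [h3 x hx k, sq_nonneg ‖h k‖]
  simp only [Complex.re_sum]
  refine (sum_le_sum fun k _ => sum_le_sum fun l _ => h5 k l).trans ?_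
  simp only [sum_add_distrib, ← sum_div] at h6 h7 ⊢
  linarith

variable {Y : Type}

/-- The conjugation action. -/
def dbl : PP Y →* PP (Y × Y) where
  toFun g := ⟨g.σ.prodCongr g.σ, fun p => g.c p.2 - g.c p.1⟩
  map_one' := by ext <;> simp
  map_mul' g h := by
    ext p <;> simp
    ring

variable [Fintype Y]

omit [CompleteSpace H] in
lemma inner_amp (x : H →L[ℂ] H) (g : PP Y) (T S : L2 Y H) :
    ⟪T, amp x g S⟫_ℂ = ∑ y, ch (g.c y) * ⟪T (g.σ y), x (S y)⟫_ℂ := by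
  rw [PiLp.inner_apply, ← Equiv.sum_comp g.σ]
  simp only [amp_apply, inner_smul_right]

theorem schmidt (τ : L2 Y H) {L : Submodule ℂ H} [FiniteDimensional ℂ L] (hL : ∀ y, τ y ∈ L) :
    ∃ ρ : L2 (Y × Y) ℂ, ‖ρ‖ ^ 2 = ‖τ‖ ^ 2 ∧
      ‖∑ y, ρ (y, y)‖ ^ 2 ≤ Module.finrank ℂ L * ‖τ‖ ^ 2 ∧ ∀ x : H →L[ℂ] H, ‖x‖ ≤ 1 → ∀ g : PP Y,
      (⟪τ, amp x g τ⟫_ℂ).re ≤ (‖τ‖ ^ 2 + (⟪ρ, amp 1 (dbl g) ρ⟫_ℂ).re) / 2 := by
  classical
  obtain ⟨t, ht⟩ : ∃ t : EuclideanSpace ℂ Y →L[ℂ] H, ∀ v, t v = ∑ y, v y • τ y :=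
    ⟨∑ y, (EuclideanSpace.proj y).smulRight (τ y), fun v => by simp⟩
  have hs := (IsSelfAdjoint.adjoint_conj (.one _) t).isSymmetric
  obtain ⟨n, f, orth⟩ : ∃ n, ∃ f : OrthonormalBasis (Fin n) ℂ (EuclideanSpace ℂ Y),
      Pairwise fun k l => ⟪t (f k), t (f l)⟫_ℂ = 0 :=
    ⟨_, hs.eigenvectorBasis rfl, fun k l hkl => by
      have := hs.apply_eigenvectorBasis rfl l
      beta_reduce
      rw [← ContinuousLinearMap.adjoint_inner_right]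
      change ⟪_, (ContinuousLinearMap.adjoint t ∘L 1 ∘L t : _ →L[ℂ] _).toLinearMap _⟫_ℂ = _
      rw [this, inner_smul_right, (hs.eigenvectorBasis rfl).orthonormal.2 hkl, mul_zero]⟩
  obtain ⟨h, hh⟩ : ∃ h : Fin n → H, ∀ k, t (f k) = h k := ⟨_, fun _ => rfl⟩
  simp only [hh] at orth
  have h1 : ∀ y, τ y = ∑ k, conj (f k y) • h k := fun y => by
    have := congrArg t (f.sum_repr' (EuclideanSpace.single y 1))
    rw [map_sum, ht] at this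
    simpa [hh, EuclideanSpace.inner_single_right] using this.symm
  obtain ⟨m, hm⟩ : ∃ m : PP Y → Fin n → Fin n → ℂ, ∀ g k l,
      m g k l = ∑ y, conj (f k (g.σ y)) * ch (-g.c y) * f l y := ⟨_, fun _ _ _ => rfl⟩
  obtain ⟨ρ, hρ⟩ : ∃ ρ : L2 (Y × Y) ℂ, ∀ y y', ρ (y, y') = ∑ k, ‖h k‖ * (f k y * conj (f k y')) :=
    ⟨WithLp.toLp 2 fun p => ∑ k, ‖h k‖ * (f k p.1 * conj (f k p.2)), fun _ _ => rfl⟩
  have h2 : ∀ (x : H →L[ℂ] H) g,
      ⟪τ, amp x g τ⟫_ℂ = ∑ k, ∑ l, conj (m g k l) * ⟪h k, x (h l)⟫_ℂ := fun x g => by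
    have : ∀ y, ch (g.c y) * ⟪τ (g.σ y), x (τ y)⟫_ℂ =
        ∑ k, ∑ l, f k (g.σ y) * ch (g.c y) * conj (f l y) * ⟪h k, x (h l)⟫_ℂ := fun y => by
      rw [h1, h1 y, sum_inner, mul_sum]
      refine sum_congr rfl fun k _ => ?_
      rw [map_sum, inner_sum, mul_sum]
      refine sum_congr rfl fun l _ => ?_
      rw [map_smul, inner_smul_left, inner_smul_right, Complex.conj_conj]
      ring
    simp only [inner_amp, this, hm, map_sum, map_mul, conj_ch, neg_neg, Complex.conj_conj, sum_mul]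
    exact sum_comm.trans (sum_congr rfl fun _ _ => sum_comm)
  have h3 : ∀ g, ⟪ρ, amp 1 (dbl g) ρ⟫_ℂ =
      ∑ k, ∑ l, ((‖h k‖ * ‖h l‖ * ‖m g k l‖ ^ 2 : ℝ) : ℂ) := fun g => by
    have : ∀ p, ch ((dbl g).c p) * ⟪ρ ((dbl g).σ p), (1 : ℂ →L[ℂ] ℂ) (ρ p)⟫_ℂ =
        ∑ k, ∑ l, ‖h k‖ * ‖h l‖ * (conj (f k (g.σ p.1)) * ch (-g.c p.1) * f l p.1 *
          (f k (g.σ p.2) * ch (g.c p.2) * conj (f l p.2))) := fun ⟨y, y'⟩ => by
      change ch (g.c y' - g.c y) * ⟪ρ (g.σ y, g.σ y'), ρ (y, y')⟫_ℂ = _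
      rw [hρ, hρ, sum_inner, mul_sum]
      refine sum_congr rfl fun k _ => ?_
      rw [inner_sum, mul_sum]
      refine sum_congr rfl fun l _ => ?_
      simp only [sub_eq_add_neg, ch_add, RCLike.inner_apply, map_mul, Complex.conj_conj,
        Complex.conj_ofReal]
      ring
    simp only [inner_amp, this]
    refine sum_comm.trans (sum_congr rfl fun k _ => sum_comm.trans (sum_congr rfl fun l _ => ?_))
    rw [← mul_sum, Fintype.sum_prod_type]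
    dsimp only
    rw [← sum_mul_sum]
    push_cast
    rw [← Complex.mul_conj', hm]
    simp only [map_sum, map_mul, conj_ch, neg_neg, Complex.conj_conj]
  have h4 : ∀ k l, m 1 k l = if k = l then 1 else 0 := fun k l => by
    rw [← orthonormal_iff_ite.1 f.orthonormal, hm, PiLp.inner_apply]
    simp [ch_zero, mul_comm]
  have h5 : ‖τ‖ ^ 2 = ∑ k, ‖h k‖ ^ 2 := by
    have := congrArg Complex.re (h2 1 1)
    rw [amp_one, Complex.re_sum] at this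
    refine (inner_self_eq_norm_sq (𝕜 := ℂ) τ).symm.trans (this.trans (sum_congr rfl fun k _ => ?_))
    rw [← inner_self_eq_norm_sq (𝕜 := ℂ)]
    simp [h4]
  have h6 : ‖ρ‖ ^ 2 = ∑ k, ‖h k‖ ^ 2 := by
    have := congrArg Complex.re (h3 1)
    rw [map_one, amp_one, Complex.re_sum] at this
    refine (inner_self_eq_norm_sq (𝕜 := ℂ) ρ).symm.trans (this.trans (sum_congr rfl fun k _ => ?_))
    rw [← Complex.ofReal_sum, Complex.ofReal_re, sum_eq_single k (fun l _ hl => by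
      simp [h4, hl.symm]) (by simp)]
    simp [h4, sq]
  refine ⟨ρ, h6.trans h5.symm, ?_, fun x hx g => ?_⟩
  · have h7 : ∑ y, ρ (y, y) = ((∑ k, ‖h k‖ : ℝ) : ℂ) := by
      simp only [hρ]
      rw [sum_comm, Complex.ofReal_sum]
      refine sum_congr rfl fun k _ => ?_
      have := h4 k k
      rw [hm, if_pos rfl] at this
      simp only [PP.one_σ, PP.one_c, neg_zero, ch_zero, mul_one, Equiv.Perm.one_apply] at this
      simp only [← mul_sum, mul_comm (f k _), this, mul_one]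
    rw [h7, Complex.norm_real, Real.norm_of_nonneg (by positivity), h5]
    refine tr_bound orth fun k => ?_
    rw [← hh, ht]
    exact L.sum_mem fun y _ => L.smul_mem _ (hL y)
  · rw [h2, h3, h5]
    simp only [← Complex.ofReal_sum, Complex.ofReal_re]
    exact amgm orth hx _

end Vale.Agent.P083
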