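import Vale.Agent.P083.Low
import Vale.Agent.P070.L2

/-! Approximate intertwiners of finite type for a Cuntz pair. -/

namespace Vale.Agent.P083
open Finset Filter Topology TensorProduct
open scoped InnerProductSpace

variable {H : Type*} [NormedAddCommGroup H] [InnerProductSpace ℂ H]

/-- Slice map. -/
noncomputable def fib (e : H) : H ⊗[ℂ] H →ₗ[ℂ] H :=
  (TensorProduct.rid ℂ H).toLinearMap ∘ₗ (innerₛₗ ℂ e).lTensor H

lemma fib_tmul (e a b : H) : fib e (a ⊗ₜ b) = ⟪e, b⟫_ℂ • a := by simp [fib]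

lemma fib_rT (e : H) (x : H →L[ℂ] H) (v : H ⊗[ℂ] H) : fib e (x.rTensor H v) = x (fib e v) := by
  induction v with
  | zero => simp
  | tmul a b => rw [ContinuousLinearMap.rTensor_tmul, fib_tmul, fib_tmul, map_smul]
  | add v w hv hw => rw [map_add, map_add, hv, hw, map_add, map_add]

lemma inner_fib (a e : H) (v : H ⊗[ℂ] H) : ⟪a ⊗ₜ[ℂ] e, v⟫_ℂ = ⟪a, fib e v⟫_ℂ := by
  induction v with
  | zero => simp
  | tmul a b => rw [fib_tmul, inner_tmul, inner_smul_right, mul_comm]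
  | add v w hv hw => rw [inner_add_right, hv, hw, map_add, inner_add_right]

lemma norm_sum_tmul {n : ℕ} {b : Fin n → H} (hb : Orthonormal ℂ b) (a : Fin n → H) :
    ‖∑ l, a l ⊗ₜ[ℂ] b l‖ ^ 2 = ∑ l, ‖a l‖ ^ 2 := by
  simp only [← inner_self_eq_norm_sq (𝕜 := ℂ), sum_inner, inner_sum, inner_tmul, map_sum,
    orthonormal_iff_ite.1 hb]
  refine sum_congr rfl fun l _ => ?_
  rw [sum_eq_single l (fun k _ hk => by simp [hk]) (by simp), if_pos rfl, mul_one]

lemma fib_bessel {n : ℕ} {b : Fin n → H} (hb : Orthonormal ℂ b) (w : H ⊗[ℂ] H) :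
    ∑ l, ‖fib (b l) w‖ ^ 2 ≤ ‖w‖ ^ 2 := by
  have h1 := norm_sum_tmul hb fun l => fib (b l) w
  have h2 := re_inner_le_norm (𝕜 := ℂ) (∑ l, fib (b l) w ⊗ₜ[ℂ] b l) w
  simp only [sum_inner, inner_fib, map_sum, inner_self_eq_norm_sq] at h2
  rw [← h1] at h2 ⊢
  nlinarith [sq_nonneg (‖∑ l, fib (b l) w ⊗ₜ[ℂ] b l‖ - ‖w‖)]

lemma exists_fib {Y : Type} [Finite Y] (v : Y → H ⊗[ℂ] H) : ∃ (n : ℕ) (b : Fin n → H),
    Orthonormal ℂ b ∧ ∀ y, ‖v y‖ ^ 2 = ∑ l, ‖fib (b l) (v y)‖ ^ 2 := by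
  obtain ⟨N, hN, h⟩ := exists_finite_submodule_right_of_setFinite _ (Set.finite_range v)
  have hb := (stdOrthonormalBasis ℂ N).orthonormal.comp_linearIsometry N.subtypeₗᵢ
  refine ⟨_, _, hb, fun y => ?_⟩
  rw [← norm_sum_tmul hb]
  congr 2
  obtain ⟨w, hw⟩ := h ⟨y, rfl⟩
  rw [← hw]
  clear hw
  induction w with
  | zero => simp
  | tmul a c =>
    simp only [LinearMap.lTensor_tmul, fib_tmul, smul_tmul, ← tmul_sum]
    congr 1
    conv_lhs => rw [← (stdOrthonormalBasis ℂ N).sum_repr' c, map_sum]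
    rfl
  | add v w hv hw => simp only [map_add, add_tmul, sum_add_distrib, ← hv, ← hw]

variable [CompleteSpace H]

lemma inner_rT (x : H →L[ℂ] H) (v w : H ⊗[ℂ] H) :
    ⟪x.rTensor H v, w⟫_ℂ = ⟪v, (star x).rTensor H w⟫_ℂ := by
  induction v with
  | zero => simp
  | add v v' hv hv' => rw [map_add, inner_add_left, inner_add_left, hv, hv']
  | tmul a b =>
    rw [ContinuousLinearMap.rTensor_tmul, inner_fib, inner_fib, fib_rT,
      ContinuousLinearMap.star_eq_adjoint, ContinuousLinearMap.adjoint_inner_right]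

/-- The intertwiners. -/
noncomputable def th (S : Fin 2 → H →L[ℂ] H) (a : H) : ℕ → H →L[ℂ] H ⊗[ℂ] H
  | 0 => mkL ℂ H H a
  | k + 1 => ∑ i, (S i).rTensor H ∘L th S a k ∘L star (S i)

lemma th_succ (S : Fin 2 → H →L[ℂ] H) (a : H) (k : ℕ) (η : H) :
    th S a (k + 1) η = ∑ i, (S i).rTensor H (th S a k (star (S i) η)) := by
  rw [th, ContinuousLinearMap.sum_apply]
  rfl

lemma fin_th (S : Fin 2 → H →L[ℂ] H) (a : H) (k : ℕ) : ∃ L : Submodule ℂ H,
    FiniteDimensional ℂ L ∧ ∀ e η, fib e (th S a k η) ∈ L := by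
  induction k with
  | zero =>
    exact ⟨ℂ ∙ a, inferInstance, fun e η => by
      rw [th, mkL_apply_apply, fib_tmul]
      exact Submodule.smul_mem _ _ (Submodule.mem_span_singleton_self a)⟩
  | succ k ih =>
    obtain ⟨L, _, h⟩ := ih
    refine ⟨L.map (S 0).toLinearMap ⊔ L.map (S 1).toLinearMap, inferInstance, fun e η => ?_⟩
    rw [th_succ, Fin.sum_univ_two, map_add, fib_rT, fib_rT]
    exact Submodule.add_mem_sup ⟨_, h _ _, rfl⟩ ⟨_, h _ _, rfl⟩

/-- A Cuntz pair. -/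
structure Cu (S : Fin 2 → H →L[ℂ] H) : Prop where
  l : ∀ i j η, star (S i) (S j η) = if i = j then η else 0
  r : ∀ η, ∑ i, S i (star (S i) η) = η

variable {S : Fin 2 → H →L[ℂ] H} (h : Cu S)
include h

lemma Cu.rT (i j : Fin 2) (v : H ⊗[ℂ] H) :
    (star (S i)).rTensor H ((S j).rTensor H v) = if i = j then v else 0 := by
  induction v with
  | zero => simp
  | tmul a b =>
    rw [ContinuousLinearMap.rTensor_tmul, ContinuousLinearMap.rTensor_tmul, h.l]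
    split_ifs <;> simp
  | add v w hv hw =>
    rw [map_add, map_add, hv, hw]
    split_ifs <;> simp

lemma Cu.th_S (a : H) (k : ℕ) (i : Fin 2) (η : H) :
    th S a (k + 1) (S i η) = (S i).rTensor H (th S a k η) := by
  rw [th_succ, sum_eq_single i (fun j _ hj => by simp [h.l, hj]) (by simp), h.l, if_pos rfl]

lemma Cu.S_th (a : H) (k : ℕ) (i : Fin 2) (η : H) :
    (star (S i)).rTensor H (th S a (k + 1) η) = th S a k (star (S i) η) := by
  simp only [th_succ, map_sum, h.rT, sum_ite_eq, mem_univ, if_true]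

lemma Cu.inner_succ (a : H) (k l : ℕ) (η ζ : H) : ⟪th S a (k + 1) η, th S a (l + 1) ζ⟫_ℂ =
    ∑ i, ⟪th S a k (star (S i) η), th S a l (star (S i) ζ)⟫_ℂ := by
  rw [th_succ, sum_inner]
  simp only [inner_rT, h.S_th]

lemma Cu.inner_th {a : H} (ha : ‖a‖ = 1) (k : ℕ) (η ζ : H) :
    ⟪th S a k η, th S a k ζ⟫_ℂ = ⟪η, ζ⟫_ℂ := by
  induction k generalizing η ζ with
  | zero => simp [th, mkL_apply_apply, inner_self_eq_norm_sq_to_K, ha]
  | succ k ih =>
    simp only [h.inner_succ, ih]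
    conv_rhs => rw [← h.r ζ, inner_sum]
    simp only [ContinuousLinearMap.star_eq_adjoint, ContinuousLinearMap.adjoint_inner_left]

lemma Cu.inner_S (i j : Fin 2) (η ζ : H) :
    ⟪S i η, S j ζ⟫_ℂ = if i = j then ⟪η, ζ⟫_ℂ else 0 := by
  rw [← ContinuousLinearMap.adjoint_inner_right, ← ContinuousLinearMap.star_eq_adjoint, h.l]
  split_ifs <;> simp

lemma Cu.norm_S (i : Fin 2) (η : H) : ‖S i η‖ = ‖η‖ := by
  rw [@norm_eq_sqrt_re_inner ℂ, h.inner_S, if_pos rfl, ← norm_eq_sqrt_re_inner]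

lemma Cu.inner_pow (m : ℕ) (η ζ : H) : ⟪(S 0 ^ m) η, (S 0 ^ m) ζ⟫_ℂ = ⟪η, ζ⟫_ℂ := by
  induction m with
  | zero => simp
  | succ m ih => rw [pow_succ', ContinuousLinearMap.mul_apply, ContinuousLinearMap.mul_apply,
      h.inner_S, if_pos rfl, ih]

lemma Cu.orth0 (ξ : H) {L m : ℕ} (hm : m < L) (l : ℕ) (η ζ : H) :
    ⟪(S 0 ^ (m + l)) (S 1 ξ) ⊗ₜ[ℂ] η, th S ((S 0 ^ L) (S 1 ξ)) l ζ⟫_ℂ = 0 := by
  induction l generalizing ζ with
  | zero =>
    obtain ⟨d, rfl⟩ := Nat.exists_eq_add_of_lt hm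
    rw [th, mkL_apply_apply, inner_tmul, add_zero, add_assoc, pow_add, pow_succ',
      ContinuousLinearMap.mul_apply, h.inner_pow, ContinuousLinearMap.mul_apply, h.inner_S]
    simp
  | succ l ih =>
    rw [← add_assoc, pow_succ', ContinuousLinearMap.mul_apply, ← ContinuousLinearMap.rTensor_tmul,
      inner_rT, h.S_th, ih]

lemma Cu.orth (ξ : H) {L d : ℕ} (hd : d < L) (k : ℕ) (η ζ : H) :
    ⟪th S ((S 0 ^ L) (S 1 ξ)) k η, th S ((S 0 ^ L) (S 1 ξ)) (k + d + 1) ζ⟫_ℂ = 0 := by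
  induction k generalizing η ζ with
  | zero =>
    have := h.orth0 ξ (m := L - (d + 1)) (L := L) (by omega) (d + 1) η ζ
    rwa [Nat.sub_add_cancel hd, ← zero_add d] at this
  | succ k ih => simp only [add_right_comm k 1 d, h.inner_succ, ih, sum_const_zero]

lemma Cu.norm_sum {ξ : H} (hξ : ‖ξ‖ = 1) {L n : ℕ} (hn : n ≤ L) (η : H) :
    ‖∑ k ∈ range n, th S ((S 0 ^ L) (S 1 ξ)) k η‖ ^ 2 = n * ‖η‖ ^ 2 := by
  have ha : ‖(S 0 ^ L) (S 1 ξ)‖ = 1 := by
    rw [@norm_eq_sqrt_re_inner ℂ, h.inner_pow, ← norm_eq_sqrt_re_inner, h.norm_S, hξ]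
  induction n with
  | zero => simp
  | succ n ih =>
    rw [sum_range_succ, @norm_add_sq ℂ, ih (by omega), sum_inner, sum_eq_zero fun k hk => by
      obtain ⟨d, rfl⟩ := Nat.exists_eq_add_of_lt (mem_range.1 hk)
      exact h.orth ξ (by omega) k η η, ← @inner_self_eq_norm_sq ℂ _ _ _ _ (th _ _ _ _),
      h.inner_th ha, inner_self_eq_norm_sq]
    simp [add_mul]

end Vale.Agent.P083
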