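import Vale.Agent.P083.Defs
import Vale.Agent.P083.SOS

/-! Lifting from ultraproducts and a uniform spectral gap. -/

namespace Vale.Agent.P083
open Filter Topology
open scoped ENNReal

section
variable {E : ℕ → Type*} [∀ n, CStarAlgebra (E n)] [∀ n, Nontrivial (E n)] {ω : Ultrafilter ℕ}

noncomputable instance : StarRing (Ultraprod E ω) where
  star_involutive x := by
    obtain ⟨x, rfl⟩ := Ideal.Quotient.mk_surjective x
    exact congrArg (Ideal.Quotient.mk (nullIdeal E ω)) (star_star x)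
  star_mul x y := by
    obtain ⟨x, rfl⟩ := Ideal.Quotient.mk_surjective x
    obtain ⟨y, rfl⟩ := Ideal.Quotient.mk_surjective y
    exact congrArg (Ideal.Quotient.mk (nullIdeal E ω)) (star_mul x y)
  star_add x y := by
    obtain ⟨x, rfl⟩ := Ideal.Quotient.mk_surjective x
    obtain ⟨y, rfl⟩ := Ideal.Quotient.mk_surjective y
    exact congrArg (Ideal.Quotient.mk (nullIdeal E ω)) (star_add x y)

instance : StarModule ℂ (Ultraprod E ω) where
  star_smul c x := by
    obtain ⟨x, rfl⟩ := Ideal.Quotient.mk_surjective x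
    exact congrArg (Ideal.Quotient.mk (nullIdeal E ω)) (star_smul c x)

variable (E ω) in
/-- The quotient map. -/
noncomputable def mkU : lp E ∞ →⋆ₐ[ℂ] Ultraprod E ω where
  __ := Ideal.Quotient.mkₐ ℂ (nullIdeal E ω)
  map_star' _ := rfl

variable (E) in
/-- Evaluation. -/
noncomputable def ev (n : ℕ) : lp E ∞ →⋆ₐ[ℂ] E n where
  toFun x := x n
  map_one' := rfl
  map_mul' _ _ := rfl
  map_zero' := rfl
  map_add' _ _ := rfl
  commutes' _ := rfl
  map_star' _ := rfl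

lemma mkU_surj (a : Ultraprod E ω) : ∃ x, mkU E ω x = a := Ideal.Quotient.mk_surjective a

lemma mkU_eq_zero {x : lp E ∞} : mkU E ω x = 0 ↔ Tendsto (fun n => ‖ev E n x‖) ω (𝓝 0) :=
  Ideal.Quotient.eq_zero_iff_mem

/-- A sequence of contractions. -/
noncomputable def ofSeq (x : ∀ n, E n) (h : ∀ n, ‖x n‖ ≤ 1) : lp E ∞ :=
  ⟨x, memℓp_infty ⟨1, by rintro _ ⟨n, rfl⟩; exact h n⟩⟩

lemma exists_lift {a : Ultraprod E ω} (h : star a * a = 1) :
    ∃ x, mkU E ω x = a ∧ ∀ n, ‖ev E n x‖ ≤ 1 := by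
  obtain ⟨y, rfl⟩ := mkU_surj a
  have h1 : mkU E ω (star y * y - 1) = 0 := by rw [map_sub, map_mul, map_star, h, map_one, sub_self]
  have hm : ∀ n, 0 < max 1 ‖y n‖ := fun n => lt_max_of_lt_left one_pos
  have hx : ∀ n, ‖((max 1 ‖y n‖ : ℝ) : ℂ)⁻¹ • y n‖ ≤ 1 := fun n => by
    rw [norm_smul, norm_inv, Complex.norm_real, Real.norm_of_nonneg (hm n).le,
      inv_mul_le_iff₀ (hm n), mul_one]
    exact le_max_right _ _
  refine ⟨ofSeq _ hx, ?_, hx⟩
  rw [← sub_eq_zero, ← map_sub, mkU_eq_zero]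
  refine squeeze_zero (fun _ => norm_nonneg _) (fun n => ?_) (mkU_eq_zero.1 h1)
  change ‖((max 1 ‖y n‖ : ℝ) : ℂ)⁻¹ • y n - y n‖ ≤ ‖star (y n) * y n - 1‖
  rcases le_total ‖y n‖ 1 with h2 | h2
  · simp [max_eq_left h2]
  · have h3 := norm_sub_norm_le (star (y n) * y n) 1
    rw [CStarRing.norm_star_mul_self, norm_one] at h3
    have h4 : 0 < ‖y n‖ := by linarith
    have h5 : ((‖y n‖ : ℝ) : ℂ)⁻¹ • y n - y n = -((1 - ‖y n‖⁻¹ : ℝ) : ℂ) • y n := by
      push_cast; module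
    rw [max_eq_right h2, h5, norm_smul, norm_neg, Complex.norm_real,
      Real.norm_of_nonneg (sub_nonneg.2 (inv_le_one_of_one_le₀ h2)), sub_mul,
      inv_mul_cancel₀ h4.ne']
    nlinarith

lemma Pos.lift {a : Ultraprod E ω} (h : Pos a) : ∃ x, mkU E ω x = a ∧ ∀ n, Pos (ev E n x) := by
  induction h using AddSubmonoid.closure_induction with
  | mem a ha =>
    obtain ⟨z, rfl⟩ := ha
    obtain ⟨y, rfl⟩ := mkU_surj z
    exact ⟨star y * y, by rw [map_mul, map_star], fun n => by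
      rw [map_mul, map_star]; exact Pos.sq _⟩
  | zero => exact ⟨0, map_zero _, fun n => by rw [map_zero]; exact zero_mem _⟩
  | add a b _ _ ha hb =>
    obtain ⟨x, rfl, hx⟩ := ha
    obtain ⟨y, rfl, hy⟩ := hb
    exact ⟨x + y, map_add _ _ _, fun n => by rw [map_add]; exact (hx n).add (hy n)⟩

end

section
variable {R R' : Type*} [Ring R] [Algebra ℂ R] [Star R] [Ring R'] [Algebra ℂ R'] [Star R']

/-- The defects of the relations. -/
def rel0 (u : Fin 5 → R) (s t : Fin 5) : Fin 5 → R :=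
  ![star (u s) * u s - 1, u s * star (u s) - 1, u s ^ 29 - 1,
    u s * u t * star (u s) * star (u t) * u s - u s * (u s * u t * star (u s) * star (u t)),
    u s * u t * star (u s) * star (u t) * u t - u t * (u s * u t * star (u s) * star (u t))]

lemma map_rel0 (f : R →⋆ₐ[ℂ] R') (u : Fin 5 → R) (s t k : Fin 5) :
    f (rel0 u s t k) = rel0 (fun s => f (u s)) s t k := by
  fin_cases k <;> simp [rel0, map_star]

/-- The symmetrized Laplacian. -/
noncomputable def herm (u : Fin 5 → R) : R :=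
  ∑ s, (1 - (1 / 2 : ℂ) • (av (u s) + star (av (u s))))

lemma map_herm (f : R →⋆ₐ[ℂ] R') (u : Fin 5 → R) : f (herm u) = herm fun s => f (u s) := by
  simp [herm, av, map_star, map_ofNat]

end

lemma spec_of_pos {E : Type*} [CStarAlgebra E] {D y : E} (hD : IsSelfAdjoint D) (hy : Pos y)
    {t : ℝ} (ht : t ∈ spectrum ℝ D) : -‖D * D - (1 / 5 : ℂ) • D - y‖ ≤ t * t - 1 / 5 * t := by
  let _ := CStarAlgebra.spectralOrder E
  have _ := CStarAlgebra.spectralOrderedRing E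
  have h0 : 0 ≤ y := (StarOrderedRing.nonneg_iff (R := E)).2 hy
  have h1 : cfc (fun t : ℝ => t * t - 1 / 5 * t) D = D * D - (1 / 5 : ℂ) • D := by
    rw [cfc_sub .., cfc_mul .., cfc_const_mul .., cfc_id' ℝ D, ← Complex.coe_smul]
    simp
  have h2 : IsSelfAdjoint (D * D - (1 / 5 : ℂ) • D) := h1 ▸ cfc_predicate _ _
  have h3 := (h2.sub h0.isSelfAdjoint).neg_algebraMap_norm_le_self
  have h4 : algebraMap ℝ E (-‖D * D - (1 / 5 : ℂ) • D - y‖) ≤ D * D - (1 / 5 : ℂ) • D := by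
    rw [map_neg]
    exact h3.trans (sub_le_self _ h0)
  rw [algebraMap_le_iff_le_spectrum h2] at h4
  refine h4 _ ?_
  rw [← h1, cfc_map_spectrum ..]
  exact ⟨t, ht, rfl⟩

lemma herm_sa {R : Type*} [Ring R] [StarRing R] [Algebra ℂ R] [StarModule ℂ R] (u : Fin 5 → R) :
    IsSelfAdjoint (herm u) := by
  simp [herm, IsSelfAdjoint, star_sum, add_comm]

lemma rel_of {R : Type*} [Ring R] [StarRing R] {u : Fin 5 → R} (h : ∀ s t k, rel0 u s t k = 0) :
    Rel u where
  l s := sub_eq_zero.1 (h s s 0)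
  r s := sub_eq_zero.1 (h s s 1)
  p s := sub_eq_zero.1 (h s s 2)
  c s t := ⟨sub_eq_zero.1 (h s t 3), sub_eq_zero.1 (h s t 4)⟩

lemma Rel.rel0 {R : Type*} [Ring R] [StarRing R] {u : Fin 5 → R} (h : Rel u) (s t k : Fin 5) :
    rel0 u s t k = 0 := by
  fin_cases k
  exacts [sub_eq_zero.2 (h.l s), sub_eq_zero.2 (h.r s), sub_eq_zero.2 (h.p s),
    sub_eq_zero.2 (h.c s t).1, sub_eq_zero.2 (h.c s t).2]

universe v

theorem gapC {θ : ℝ} (hθ : 0 < θ) : ∃ ε > 0, ∀ (E : Type v) [CStarAlgebra E] (u : Fin 5 → E),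
    (∀ s, ‖u s‖ ≤ 1) → (∀ s t k, ‖rel0 u s t k‖ ≤ ε) →
    ∀ t ∈ spectrum ℝ (herm u), t < θ ∨ 1 / 5 - θ < t := by
  by_contra! hc
  choose E _ u h1 h2 t ht h3 h4 using fun n : ℕ => hc (1 / (n + 1)) (by positivity)
  have : ∀ n, Nontrivial (E n) := fun n => by
    by_contra h
    rw [not_nontrivial_iff_subsingleton] at h
    simpa using ht n
  obtain ⟨x, hx⟩ : ∃ x : Fin 5 → lp E ∞, ∀ n s, ev E n (x s) = u n s :=
    ⟨fun s => ofSeq (fun n => u n s) fun n => h1 n s, fun _ _ => rfl⟩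
  have h5 : Rel fun s => mkU E (hyperfilter ℕ) (x s) := rel_of fun s t k => by
    rw [← map_rel0, mkU_eq_zero]
    refine squeeze_zero (fun _ => norm_nonneg _) (fun n => ?_)
      (tendsto_one_div_add_atTop_nhds_zero_nat.mono_left Nat.hyperfilter_le_atTop)
    rw [map_rel0]
    simp only [hx]
    exact h2 n s t k
  obtain ⟨y, hy, hy'⟩ := h5.pos.lift
  have h6 : lap (fun s => mkU E (hyperfilter ℕ) (x s)) = mkU E (hyperfilter ℕ) (herm x) := by
    rw [map_herm, lap, herm]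
    refine Finset.sum_congr rfl fun s _ => ?_
    rw [star_av (h5.l s) (h5.p s), ← two_smul ℂ, smul_smul]
    norm_num
  have h7 : mkU E (hyperfilter ℕ) (herm x * herm x - (1 / 5 : ℂ) • herm x - y) = 0 := by
    rw [map_sub, hy, h6, map_sub, map_mul, map_smul, sub_self]
  obtain ⟨n, hn⟩ := ((mkU_eq_zero.1 h7).eventually (gt_mem_nhds (a := θ * θ) (by positivity))).exists
  rw [map_sub, map_sub, map_mul, map_smul, map_herm] at hn
  simp only [hx] at hn
  have h8 := spec_of_pos (herm_sa (u n)) (hy' n) (ht n)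
  nlinarith [mul_le_mul (h3 n) (show θ ≤ 1 / 5 - t n by linarith [h4 n]) hθ.le
    (hθ.le.trans (h3 n))]

end Vale.Agent.P083
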